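import Vale.Agent.P098.S1.F.Bdry

/-! P098 S1/F/Bdc: an integer test for `BdOK`.
Plan: gev l 1 0 = (s0 l : ℝ) by induction on l; then exact_mod_cast. -/

noncomputable section

namespace Vale.Agent.P098

def s0 (l : PL) : ℤ := (l.map fun e => if e.2.1 = 0 then e.2.2 else 0).sum

def bdChk (g h : ℕ → PL) : Bool :=
  decide (-s0 (g 0) + s0 (g 3) + s0 (g 10) = 0) &&
  decide (0 ≤ -2 * s0 (g 0) - s0 (g 1) - s0 (g 2) + s0 (g 3) - s0 (g 7) - s0 (g 12) + s0 (h 0)) &&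
  decide (0 ≤ (-2 * s0 (g 0) - s0 (g 1) - s0 (g 2) + s0 (g 3) - s0 (g 7) - s0 (g 12) + s0 (h 0))
    + 4 * (-(s0 (g 0) + s0 (g 1) + s0 (g 2) + s0 (g 5) + s0 (g 6) + s0 (g 7) + s0 (g 8) + s0 (g 9)
    + s0 (g 10) + s0 (g 11) + s0 (g 12) + s0 (g 13) + s0 (g 14)) + s0 (h 0) + s0 (h 1) + s0 (h 2))) &&
  decide (0 ≤ s0 (g 17)) &&
  decide (0 ≤ s0 (g 17) + 4 * (s0 (g 15) + s0 (g 16) + s0 (g 17) + s0 (g 18) + s0 (g 19)))

theorem gev_s0 (l : PL) : gev l 1 0 = (s0 l : ℝ) := by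
  induction l with
  | nil => simp [gev, s0]
  | cons e l ih =>
    unfold gev s0 at *
    rw [List.map_cons, List.sum_cons, List.map_cons, List.sum_cons, ih, Int.cast_add]
    congr 1
    split_ifs with h
    · simp [h]
    · simp [h]

theorem bdOK_of {g h : ℕ → PL} (ok : bdChk g h = true) : BdOK g h := by
  simp only [bdChk, Bool.and_eq_true, decide_eq_true_eq] at ok
  obtain ⟨⟨⟨⟨h1, h2⟩, h3⟩, h4⟩, h5⟩ := ok
  refine ⟨?_, ?_, ?_, ?_, ?_⟩ <;> simp only [gev_s0]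
  · exact_mod_cast h1
  · exact_mod_cast h2
  · exact_mod_cast h3
  · exact_mod_cast h4
  · exact_mod_cast h5

end Vale.Agent.P098
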