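import Vale.Agent.P098.S1.F.Defs

/-! P098 S1/F/Frame: existence of an adapted Parseval frame.
Plan: choose a unit vector b1 orthogonal to x with p = ⟪x,p⟫ x + ρ b1, ρ ≥ 0 (if p is parallel to x take any unit
vector orthogonal to x, it exists as 2 ≤ d). W = orthogonal complement of span {x, b1}, finrank W = d - 2 ≤ 4.
The compression of S to W is a symmetric operator (LinearMap.IsSymmetric), take its eigenvectorBasis, pad it by
zero vectors up to four vectors. Parseval: z = ⟪x,z⟫ x + ⟪b1,z⟫ b1 + (element of W). -/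

open MeasureTheory Filter Topology Set Metric
open scoped ContDiff RealInnerProductSpace NNReal

set_option maxSynthPendingDepth 3

noncomputable section

namespace Vale.Agent.P098

variable {d : ℕ}

theorem frame_diag {W : Type} [NormedAddCommGroup W] [InnerProductSpace ℝ W]
    [FiniteDimensional ℝ W] {n : ℕ} (hn : Module.finrank ℝ W = n) (B : W →L[ℝ] W →L[ℝ] ℝ)
    (hB : ∀ a c, B a c = B c a) :
    ∃ e : OrthonormalBasis (Fin n) ℝ W, ∀ i j, i ≠ j → B (e i) (e j) = 0 := by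
  have : CompleteSpace W := FiniteDimensional.complete ℝ W
  obtain ⟨T, hT⟩ : ∃ T : W →ₗ[ℝ] W, ∀ a c, ⟪T a, c⟫ = B a c :=
    ⟨(InnerProductSpace.continuousLinearMapOfBilin (𝕜 := ℝ) B : W →L[ℝ] W),
      InnerProductSpace.continuousLinearMapOfBilin_apply B⟩
  have hs : T.IsSymmetric := fun a c => by rw [hT, real_inner_comm, hT, hB]
  refine ⟨hs.eigenvectorBasis hn, fun i j hij => ?_⟩
  rw [← hT, hs.apply_eigenvectorBasis hn i, real_inner_smul_left,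
    (hs.eigenvectorBasis hn).orthonormal.2 hij, mul_zero]

theorem frame_pad {M : Type} [AddCommMonoid M] {n : ℕ} (hn : n ≤ 4) (g : Fin n → M) :
    ∑ k : Fin 4, (if h : (k : ℕ) < n then g ⟨k, h⟩ else 0) = ∑ i, g i := by
  let G : ℕ → M := fun k => if h : k < n then g ⟨k, h⟩ else 0
  have e1 : ∑ k : Fin 4, G k = ∑ k ∈ Finset.range 4, G k := Fin.sum_univ_eq_sum_range G 4
  have e2 : ∑ k : Fin n, G k = ∑ k ∈ Finset.range n, G k := Fin.sum_univ_eq_sum_range G n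
  have e3 : ∑ k ∈ Finset.range n, G k = ∑ k ∈ Finset.range 4, G k :=
    Finset.sum_subset (Finset.range_mono hn) fun k _ hk =>
      dif_neg fun h => hk (Finset.mem_range.2 h)
  have e4 : ∑ k : Fin n, G k = ∑ i, g i := Finset.sum_congr rfl fun k _ => dif_pos k.2
  exact e1.trans (e3.symm.trans (e2.symm.trans e4))

theorem frame_second (h2 : 2 ≤ d) (x p : E d) (hx : ‖x‖ = 1) :
    ∃ (y : E d) (ρ : ℝ), ‖y‖ = 1 ∧ ⟪x, y⟫ = 0 ∧ 0 ≤ ρ ∧ p = ⟪x, p⟫ • x + ρ • y := by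
  have hxx : ⟪x, x⟫ = 1 := by rw [real_inner_self_eq_norm_sq, hx, one_pow]
  obtain ⟨w, w0, hw, ρ, hρ, e⟩ : ∃ w : E d, w ≠ 0 ∧ ⟪x, w⟫ = 0 ∧ ∃ ρ : ℝ, 0 ≤ ρ ∧
      p = ⟪x, p⟫ • x + ρ • w := by
    by_cases h : p - ⟪x, p⟫ • x = 0
    · have hk := LinearMap.ker_ne_bot_of_finrank_lt (f := ((innerSL ℝ x : E d →L[ℝ] ℝ) : E d →ₗ[ℝ] ℝ))
        (by rw [Module.finrank_self, finrank_euclideanSpace_fin]; omega)
      obtain ⟨w, hw, w0⟩ := Submodule.exists_mem_ne_zero_of_ne_bot hk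
      exact ⟨w, w0, hw, 0, le_rfl, by rw [zero_smul, add_zero]; exact sub_eq_zero.1 h⟩
    · refine ⟨_, h, ?_, 1, zero_le_one, by rw [one_smul, add_sub_cancel]⟩
      rw [inner_sub_right, real_inner_smul_right, hxx, mul_one, sub_self]
  have n0 : ‖w‖ ≠ 0 := norm_ne_zero_iff.2 w0
  refine ⟨‖w‖⁻¹ • w, ρ * ‖w‖, norm_smul_inv_norm w0, by rw [real_inner_smul_right, hw, mul_zero],
    mul_nonneg hρ (norm_nonneg _), ?_⟩
  rw [smul_smul, mul_inv_cancel_right₀ n0]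
  exact e

theorem frame_rest (h6 : d ≤ 6) (x y : E d) (hx : ‖x‖ = 1) (hy : ‖y‖ = 1) (hxy : ⟪x, y⟫ = 0)
    (S : B2 d) (hS : ∀ a c, S a c = S c a) : ∃ f : Fin 4 → E d, (∀ k, ⟪f k, x⟫ = 0) ∧
      (∀ k, ⟪f k, y⟫ = 0) ∧ (∀ z, ⟪x, z⟫ = 0 → ⟪y, z⟫ = 0 → ∑ k, ⟪f k, z⟫ • f k = z) ∧
      ∀ i j, i ≠ j → S (f i) (f j) = 0 := by
  have hxx : ⟪x, x⟫ = 1 := by rw [real_inner_self_eq_norm_sq, hx, one_pow]
  have hyy : ⟪y, y⟫ = 1 := by rw [real_inner_self_eq_norm_sq, hy, one_pow]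
  have hyx : ⟪y, x⟫ = 0 := by rw [real_inner_comm, hxy]
  let φ : E d →ₗ[ℝ] ℝ × ℝ := ((innerSL ℝ x).prod (innerSL ℝ y) : E d →L[ℝ] ℝ × ℝ)
  have hφ : ∀ z, φ z = (⟪x, z⟫, ⟪y, z⟫) := fun _ => rfl
  have hm : ∀ z, z ∈ LinearMap.ker φ ↔ ⟪x, z⟫ = 0 ∧ ⟪y, z⟫ = 0 := fun z => by
    rw [LinearMap.mem_ker, hφ, Prod.mk_eq_zero]
  have hr : LinearMap.range φ = ⊤ := LinearMap.range_eq_top.2 fun q => ⟨q.1 • x + q.2 • y, by
    simp only [hφ, inner_add_right, real_inner_smul_right, hxx, hyy, hxy, hyx, mul_one, mul_zero,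
      add_zero, zero_add]⟩
  have hd := φ.finrank_range_add_finrank_ker
  rw [hr, finrank_top, Module.finrank_prod, Module.finrank_self, finrank_euclideanSpace_fin] at hd
  obtain ⟨n, hn⟩ : ∃ n, Module.finrank ℝ (LinearMap.ker φ) = n := ⟨_, rfl⟩
  obtain ⟨e, he⟩ := frame_diag hn
    (ContinuousLinearMap.bilinearComp S (LinearMap.ker φ).subtypeL (LinearMap.ker φ).subtypeL)
    fun a c => hS a c
  refine ⟨fun k => if h : (k : ℕ) < n then (e ⟨k, h⟩ : E d) else 0, fun k => ?_, fun k => ?_,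
    fun z h1 h2 => ?_, fun i j hij => ?_⟩
  · beta_reduce
    split_ifs with h
    · rw [real_inner_comm]
      exact ((hm _).1 (e ⟨k, h⟩).2).1
    · exact inner_zero_left _
  · beta_reduce
    split_ifs with h
    · rw [real_inner_comm]
      exact ((hm _).1 (e ⟨k, h⟩).2).2
    · exact inner_zero_left _
  · have e1 := congrArg Subtype.val (e.sum_repr' ⟨z, (hm z).2 ⟨h1, h2⟩⟩)
    rw [Submodule.coe_sum] at e1
    refine Eq.trans (Finset.sum_congr rfl fun k _ => ?_)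
      ((frame_pad (by omega) fun i => ⟪(e i : E d), z⟫ • (e i : E d)).trans e1)
    beta_reduce
    split_ifs with h
    · rfl
    · exact smul_zero _
  · beta_reduce
    split_ifs with h h'
    · exact he ⟨i, h⟩ ⟨j, h'⟩ fun hh => hij (Fin.ext (Fin.mk.inj_iff.1 hh))
    · exact map_zero _
    · rw [map_zero]
      rfl
    · exact map_zero _

theorem exists_frame (h2 : 2 ≤ d) (h6 : d ≤ 6) (x p : E d) (hx : ‖x‖ = 1) (S : B2 d)
    (hS : ∀ a c, S a c = S c a) : ∃ (b : Fin 6 → E d) (ρ : ℝ), Pars b ∧ b 0 = x ∧ 0 ≤ ρ ∧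
      ar1 b x = ![1, 0, 0, 0, 0, 0] ∧ ar1 b p = ![⟪x, p⟫, ρ, 0, 0, 0, 0] ∧
      (∀ i j : Fin 6, 2 ≤ i → 2 ≤ j → i ≠ j → S (b i) (b j) = 0) := by
  obtain ⟨y, ρ, hy, hxy, hρ, hp⟩ := frame_second h2 x p hx
  obtain ⟨f, fx, fy, hf, hd⟩ := frame_rest h6 x y hx hy hxy S hS
  have hxx : ⟪x, x⟫ = 1 := by rw [real_inner_self_eq_norm_sq, hx, one_pow]
  have hyy : ⟪y, y⟫ = 1 := by rw [real_inner_self_eq_norm_sq, hy, one_pow]
  have hyx : ⟪y, x⟫ = 0 := by rw [real_inner_comm, hxy]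
  have fp : ∀ k, ⟪f k, p⟫ = 0 := fun k => by
    rw [hp, inner_add_right, real_inner_smul_right, real_inner_smul_right, fx, fy]
    ring
  have yp : ⟪y, p⟫ = ρ := by
    rw [hp, inner_add_right, real_inner_smul_right, real_inner_smul_right, hyx, hyy]
    ring
  refine ⟨Fin.cons x (Fin.cons y f), ρ, fun z => ?_, rfl, hρ, ?_, ?_, fun i j hi hj hij => ?_⟩
  · have e := hf (z - ⟪x, z⟫ • x - ⟪y, z⟫ • y)
      (by simp only [inner_sub_right, real_inner_smul_right, hxx, hxy]; ring)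
      (by simp only [inner_sub_right, real_inner_smul_right, hyy, hyx]; ring)
    simp only [inner_sub_right, real_inner_smul_right, fx, fy, mul_zero, sub_zero] at e
    rw [Fin.sum_univ_succ, Fin.sum_univ_succ]
    simp only [Fin.cons_zero, Fin.cons_succ, e]
    abel
  · funext i
    fin_cases i
    exacts [hxx, hyx, fx 0, fx 1, fx 2, fx 3]
  · funext i
    fin_cases i
    exacts [rfl, yp, fp 0, fp 1, fp 2, fp 3]
  · have k : ∀ i : Fin 6, 2 ≤ i → ∃ a : Fin 4, i = a.succ.succ := by decide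
    obtain ⟨a, rfl⟩ := k i hi
    obtain ⟨c, rfl⟩ := k j hj
    exact hd a c fun h => hij (by rw [h])

end Vale.Agent.P098
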