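import Vale.Agent.P098.S1.F.Inv
import Vale.Agent.P098.S1.F.Frame

/-! P098 S1/F/Bdry: the boundary flux.
Plan: exists_frame for (x / ‖x‖, ν): arrays p = ![0,1,0,0,0,0] (ρ = 1 from Pars.inner_eq and ρ ≥ 0), S diagonal
(S 0 j = 0, S 1 j = 0 for j ≠ 1 by SJ.c2, off diagonal zero), S 1 1 = -H, trace zero so the four other diagonal
entries k_i sum to H; T 1 i i = S 1 1 * k_i - k_i ^ 2 for i = 0 or 2 ≤ i (SJ.c3, Pars.sqf_eq; note b 1 = ν),
T 1 1 1 by the trace. With G t = gev (g t) 1 0, k2 = sum k_i^2, k3 = sum k_i^3, Pars.XOf_eq and Pars.PhOf_eq give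
flux = a1 k3 + a2 H k2 + a3 H^3 + G 17 k2 + b2 H^2 (simp [XT, PT, XA, XL, XN, ..., Fin.sum_univ_six,
Finset.sum_range_succ]; ring), and 4 k2 ≥ H^2 by Cauchy-Schwarz. -/

open MeasureTheory Filter Topology Set Metric
open scoped ContDiff RealInnerProductSpace NNReal

set_option maxSynthPendingDepth 3

noncomputable section

namespace Vale.Agent.P098

variable {d : ℕ}

/-- the sign conditions on the boundary values of the coefficients -/
structure BdOK (g h : ℕ → PL) : Prop where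
  a1 : -gev (g 0) 1 0 + gev (g 3) 1 0 + gev (g 10) 1 0 = 0
  a2 : 0 ≤ -2 * gev (g 0) 1 0 - gev (g 1) 1 0 - gev (g 2) 1 0 + gev (g 3) 1 0 - gev (g 7) 1 0
    - gev (g 12) 1 0 + gev (h 0) 1 0
  a3 : 0 ≤ (-2 * gev (g 0) 1 0 - gev (g 1) 1 0 - gev (g 2) 1 0 + gev (g 3) 1 0 - gev (g 7) 1 0
    - gev (g 12) 1 0 + gev (h 0) 1 0) + 4 * (-(gev (g 0) 1 0 + gev (g 1) 1 0 + gev (g 2) 1 0
    + gev (g 5) 1 0 + gev (g 6) 1 0 + gev (g 7) 1 0 + gev (g 8) 1 0 + gev (g 9) 1 0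
    + gev (g 10) 1 0 + gev (g 11) 1 0 + gev (g 12) 1 0 + gev (g 13) 1 0 + gev (g 14) 1 0)
    + gev (h 0) 1 0 + gev (h 1) 1 0 + gev (h 2) 1 0)
  b1 : 0 ≤ gev (g 17) 1 0
  b2 : 0 ≤ gev (g 17) 1 0 + 4 * (gev (g 15) 1 0 + gev (g 16) 1 0 + gev (g 17) 1 0
    + gev (g 18) 1 0 + gev (g 19) 1 0)

/-- the second coordinate vector -/
def bdry_p : A1 := ![0, 1, 0, 0, 0, 0]

theorem bdry_p1 : bdry_p 1 = 1 := rfl

theorem bdry_dt (z : A1) : dtA bdry_p z = z 1 := by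
  simp [dtA, bdry_p, Fin.sum_univ_six]

theorem bdry_dt' (z : A1) : dtA z bdry_p = z 1 := by
  simp [dtA, bdry_p, Fin.sum_univ_six]

theorem bdry_mvp (B : A2) (i : Fin 6) : mvA B bdry_p i = B i 1 := by
  simp [mvA, bdry_p, Fin.sum_univ_six]

theorem bdry_mv {S : A2} (hS : ∀ i j, i ≠ j → S i j = 0) (z : A1) (i : Fin 6) :
    mvA S z i = S i i * z i :=
  Finset.sum_eq_single i (fun j _ hj => by rw [hS i j hj.symm, zero_mul]) (by simp)

theorem bdry_fr {S : A2} (hS : ∀ i j, i ≠ j → S i j = 0) (B : A2) :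
    frA B S = ∑ i, B i i * S i i :=
  Finset.sum_congr rfl fun i _ =>
    Finset.sum_eq_single i (fun j _ hj => by rw [hS i j hj.symm, mul_zero]) (by simp)

theorem bdry_mm {S : A2} (hS : ∀ i j, i ≠ j → S i j = 0) (i : Fin 6) :
    mmA S S i i = S i i * S i i :=
  Finset.sum_eq_single i (fun j _ hj => by rw [hS i j hj.symm, zero_mul]) (by simp)

theorem bdry_sc {S : A2} (hS : ∀ i j, i ≠ j → S i j = 0) (c : ℝ) :
    mvA S (fun i => c * bdry_p i) = fun i => c * S 1 1 * bdry_p i := by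
  funext i
  rw [bdry_mv hS]
  fin_cases i <;> simp [bdry_p]
  ring

theorem bdry_dtc (c : ℝ) (z : A1) : dtA z (fun i => c * bdry_p i) = c * z 1 := by
  simp [dtA, bdry_p, Fin.sum_univ_six]
  ring

theorem bdry_mvc (c : ℝ) (B : A2) (i : Fin 6) : mvA B (fun i => c * bdry_p i) i = c * B i 1 := by
  simp [mvA, bdry_p, Fin.sum_univ_six]
  ring

theorem bdry_arr {g h : ℕ → PL} (ok : BdOK g h) {S : A2} {T : A3}
    (hS : ∀ i j, i ≠ j → S i j = 0) (h0 : S 0 0 = 0) (htr : ∑ i, S i i = 0)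
    (hT : ∀ i, i ≠ 1 → T 1 i i = S 1 1 * S i i - S i i * S i i) (hTr : ∑ i, T 1 i i = 0)
    (hH : S 1 1 ≤ 0) : 0 ≤ XT g bdry_p 0 S T bdry_p - S 1 1 * PT h bdry_p 0 S := by
  have q1 : q1A bdry_p S = fun i => S 1 1 * bdry_p i := by
    have := bdry_sc hS 1
    simp only [one_mul] at this
    exact this
  have q2 : q2A bdry_p S = fun i => S 1 1 * S 1 1 * bdry_p i := by
    rw [q2A, q1, bdry_sc hS]
  have q3 : q3A bdry_p S = fun i => S 1 1 * S 1 1 * S 1 1 * bdry_p i := by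
    rw [q3A, q2, bdry_sc hS]
  have ha : aA bdry_p S = S 1 1 := by rw [aA, q1, bdry_dt, bdry_p1, mul_one]
  have hb : bA bdry_p S = S 1 1 * S 1 1 := by rw [bA, q1, bdry_dtc, bdry_p1, mul_one]
  have hc : cA bdry_p S = S 1 1 * S 1 1 * S 1 1 := by
    rw [cA, q1, q2, bdry_dtc, bdry_p1, mul_one]
  rw [Fin.sum_univ_six] at htr hTr
  rw [hT 0 (by decide), hT 2 (by decide), hT 3 (by decide), hT 4 (by decide), hT 5 (by decide),
    h0] at hTr
  rw [h0] at htr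
  obtain ⟨K2, hK2⟩ : ∃ K, K = S 2 2 * S 2 2 + S 3 3 * S 3 3 + S 4 4 * S 4 4 + S 5 5 * S 5 5 :=
    ⟨_, rfl⟩
  obtain ⟨K3, hK3⟩ : ∃ K, K = S 2 2 * S 2 2 * S 2 2 + S 3 3 * S 3 3 * S 3 3
    + S 4 4 * S 4 4 * S 4 4 + S 5 5 * S 5 5 * S 5 5 := ⟨_, rfl⟩
  have hi : iA S = S 1 1 * S 1 1 + K2 := by
    rw [iA, bdry_fr hS, Fin.sum_univ_six, h0, hK2]
    ring
  have hj : jA S = S 1 1 * S 1 1 * S 1 1 + K3 := by
    rw [jA, bdry_fr hS, Fin.sum_univ_six]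
    simp only [bdry_mm hS]
    rw [h0, hK3]
    ring
  have t1 : T 1 1 1 = S 1 1 * S 1 1 + K2 := by
    rw [hK2]
    linear_combination hTr - S 1 1 * htr
  have tc : tcA T S 1 = S 1 1 * S 1 1 * S 1 1 + 2 * S 1 1 * K2 - K3 := by
    rw [tcA, bdry_fr hS, Fin.sum_univ_six, hT 0 (by decide), hT 2 (by decide), hT 3 (by decide),
      hT 4 (by decide), hT 5 (by decide), t1, h0, hK2, hK3]
    ring
  have tv : tvA T bdry_p bdry_p 1 = S 1 1 * S 1 1 + K2 := by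
    rw [tvA, bdry_dt, bdry_mvp, t1]
  have tv1 : tvA T bdry_p (fun i => S 1 1 * bdry_p i) 1 = S 1 1 * (S 1 1 * S 1 1 + K2) := by
    rw [tvA, bdry_dt, bdry_mvc, t1]
  have cs : 0 ≤ K2 - S 1 1 * S 1 1 / 4 := by
    have e : S 1 1 = -(S 2 2 + S 3 3 + S 4 4 + S 5 5) := by linarith
    rw [e, hK2]
    nlinarith [sq_nonneg (S 2 2 - S 3 3), sq_nonneg (S 2 2 - S 4 4), sq_nonneg (S 2 2 - S 5 5),
      sq_nonneg (S 3 3 - S 4 4), sq_nonneg (S 3 3 - S 5 5), sq_nonneg (S 4 4 - S 5 5)]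
  simp only [XT, PT, XA, XL, XN, PA, Finset.sum_range_succ, Finset.sum_range_zero, bdry_dt,
    bdry_dt', bdry_dtc, bdry_mv hS, q1, q2, q3, ha, hb, hc, hi, hj, tc, tv, tv1, bdry_p1]
  have hH' : 0 ≤ -S 1 1 := by linarith
  have e1 := mul_nonneg (mul_nonneg ok.a2 hH') cs
  have e2 := mul_nonneg ok.a3 (mul_nonneg hH' (mul_nonneg hH' hH'))
  have e3 := mul_nonneg ok.b1 cs
  have e4 := mul_nonneg ok.b2 (mul_nonneg hH' hH')
  have e5 := ok.a1
  linear_combination e1 + e2 / 4 + e3 + e4 / 4 - K3 * e5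

theorem bdry_of (h2 : 2 ≤ d) (h6 : d ≤ 6) {g h : ℕ → PL} (ok : BdOK g h) (x ν : E d) (S : B2 d)
    (T : B3 d) (hx : x ≠ 0) (hxν : ⟪x, ν⟫ = 0) (hS : S x = 0) (hj : SJ ν (0, innerSL ℝ ν, S, T))
    (hH : S ν ν ≤ 0) : 0 ≤ ⟪XOf g (ν, 0, S, T), ν⟫ - S ν ν * PhOf h (ν, 0, S) := by
  have s2 : ∀ v w, S v w = S w v := hj.hj.s2
  have c2 : ∀ v, S ν v = S ν ν * ⟪ν, v⟫ := hj.c2
  have c3 : ∀ v w, ⟪ν, v⟫ = 0 → ⟪ν, w⟫ = 0 → T ν v w + sqf S v w - S ν ν * S v w = 0 := hj.c3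
  have t2 : tr S = 0 := hj.hj.t2
  have t3 : ∀ a, tr (T a) = 0 := hj.hj.t3
  have hn : ‖(‖x‖⁻¹ • x : E d)‖ = 1 := norm_smul_inv_norm hx
  obtain ⟨b, ρ, hb, hb0, hρ, -, hp, hd⟩ := exists_frame h2 h6 (‖x‖⁻¹ • x) ν hn S s2
  rw [real_inner_smul_left, hxν, mul_zero] at hp
  have hνν : ⟪ν, ν⟫ = 1 := by rw [real_inner_self_eq_norm_sq, hj.unit, one_pow]
  have hρ1 : ρ = 1 := by
    have e := hb.inner_eq ν ν
    rw [hνν, hp] at e
    simp [dtA, Fin.sum_univ_six] at e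
    nlinarith
  have hp' : ar1 b ν = bdry_p := by rw [hp, hρ1]; rfl
  have hpi : ∀ i, ⟪b i, ν⟫ = bdry_p i := fun i => congrFun hp' i
  have hb1 : b 1 = ν := by
    have e := hb ν
    simp only [hpi] at e
    simpa [bdry_p, Fin.sum_univ_six] using e
  have hne : ∀ i, i ≠ 1 → ⟪ν, b i⟫ = 0 := fun i hi => by
    rw [real_inner_comm, hpi]
    fin_cases i <;> first | rfl | exact absurd rfl hi
  have z0 : ∀ v, S (b 0) v = 0 := fun v => by
    rw [hb0, map_smul, hS, smul_zero]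
    rfl
  have z1 : ∀ i, i ≠ 1 → S (b 1) (b i) = 0 := fun i hi => by
    rw [hb1, c2, hne i hi, mul_zero]
  have hD : ∀ i j, i ≠ j → ar2 b S i j = 0 := fun i j hij => by
    change S (b i) (b j) = 0
    by_cases i0 : i = 0
    · rw [i0, z0]
    by_cases j0 : j = 0
    · rw [j0, s2, z0]
    by_cases i1 : i = 1
    · rw [i1]
      exact z1 j fun e => hij (i1.trans e.symm)
    by_cases j1 : j = 1
    · rw [j1, s2]
      exact z1 i i1
    exact hd i j (by omega) (by omega) hij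
  have e11 : ar2 b S 1 1 = S ν ν := by rw [ar2, hb1]
  have key := bdry_arr ok (S := ar2 b S) (T := ar3 b T) hD (z0 _)
    ((hb.sum_frame S).trans t2) (fun i hi => ?_) ((hb.sum_frame (T (b 1))).trans (t3 _))
    (e11 ▸ hH)
  · rw [real_inner_comm, hb.XOf_eq, hb.PhOf_eq, hp', ← e11]
    exact key
  · have e := c3 (b i) (b i) (hne i hi) (hne i hi)
    have e2 : ∑ k, S (b i) (b k) * S (b i) (b k) = S (b i) (b i) * S (b i) (b i) :=
      Finset.sum_eq_single i (fun j _ hj => mul_eq_zero_of_left (hD i j hj.symm) _) (by simp)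
    rw [hb.sqf_eq, e2] at e
    rw [e11]
    change T (b 1) (b i) (b i) = S ν ν * S (b i) (b i) - S (b i) (b i) * S (b i) (b i)
    rw [hb1]
    linarith

end Vale.Agent.P098
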