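import Vale.Agent.P098.S1.F.DerB
import Vale.Agent.P098.S1.F.Bdry

/-! P098 S1/F/Glue: from the array inequality to the certificate.
Plan: for x as in Cert.key put r = ‖x‖, take exists_frame for (r⁻¹ • x, gradient u x, r • D2 u x); build Adp from
s1_hj, s1_euler1/2/3, Pars.sum_frame (v = u x / r = ⟪r⁻¹ • x, p⟫, b 0 = r⁻¹ • x); ρ^2 + v^2 = ‖p‖^2 ≤ 1 by
Pars.inner_eq; rewrite with dvg_fldOf, fderiv_phiOf, Pars.XOf_eq, Pars.PhOf_eq (al = 5/8: 2 - 2/al = -6/5).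
phi_pos: from ArrOK.pos and Pars.eq_zero. del: ArrOK.upper gives η * iA ≥ (η / C) * PT. -/

open MeasureTheory Filter Topology Set Metric
open scoped ContDiff RealInnerProductSpace NNReal

set_option maxSynthPendingDepth 3

noncomputable section

namespace Vale.Agent.P098

variable {d : ℕ}

/-- the array form of the interior inequality in dimension `n` -/
structure ArrOK (n : ℕ) (g h : ℕ → PL) (η C : ℝ) : Prop where
  η_pos : 0 < η
  C_pos : 0 < C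
  key : ∀ (x p : A1) (v ρ : ℝ) (S : A2) (T : A3) (w : A1), Adp x p v ρ S T → 0 ≤ v → 0 ≤ ρ →
    ρ ^ 2 + v ^ 2 ≤ 1 → w 0 = 0 →
    ((n : ℝ) - 2) ^ 2 / 4 * PT h p v S + η * iA S ≤
      DVT g x p v S T - ((n : ℝ) - 1) * XT g p v S T x + (-6 / 5) * XT g p v S T w
        - GWT h x p v S T w + (11 / 5) * PT h p v S * dtA w w
  pos : ∀ (x p : A1) (v ρ : ℝ) (S : A2) (T : A3), Adp x p v ρ S T → 0 ≤ v → 0 ≤ ρ →
    ρ ^ 2 + v ^ 2 ≤ 1 → η * iA S ≤ PT h p v S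
  upper : ∀ (x p : A1) (v ρ : ℝ) (S : A2) (T : A3), Adp x p v ρ S T → 0 ≤ v → 0 ≤ ρ →
    ρ ^ 2 + v ^ 2 ≤ 1 → PT h p v S ≤ C * iA S

theorem glue_s2 (r : ℝ) (S : B2 d) (a c : E d) : (r • S) a c = r * S a c := rfl

theorem glue_s3 (r : ℝ) (T : B3 d) (a c e : E d) : (r • T) a c e = r * T a c e := rfl

theorem glue_adp (h2 : 2 ≤ d) (h6 : d ≤ 6) {u : E d → ℝ} {U : Set (E d)} (hU : IsOpen U)
    (hu : Harm u U) (hom : Hom u) {x : E d} (hx : x ∈ U) (h0 : x ≠ 0)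
    (hp : ‖gradient u x‖ ≤ 1) : ∃ (b : Fin 6 → E d) (ρ : ℝ), Pars b ∧ b 0 = ‖x‖⁻¹ • x ∧
      Adp (ar1 b (‖x‖⁻¹ • x)) (ar1 b (gradient u x)) (u x / ‖x‖) ρ (ar2 b (‖x‖ • D2 u x))
        (ar3 b (‖x‖ ^ 2 • D3 u x)) ∧ 0 ≤ ρ ∧ ρ ^ 2 + (u x / ‖x‖) ^ 2 ≤ 1 := by
  have hj := s1_hj hU hu hx
  have sm := (hu x hx).1
  have r0 := (norm_pos_iff.2 h0).ne'
  have sy : ∀ a c, (‖x‖ • D2 u x) a c = (‖x‖ • D2 u x) c a := fun a c =>
    congrArg (‖x‖ * ·) (hj.s2 a c)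
  obtain ⟨b, ρ, hb, b0, hρ, e1, e2, e3⟩ := exists_frame h2 h6 (‖x‖⁻¹ • x) (gradient u x)
    (norm_smul_inv_norm h0) _ sy
  rw [real_inner_smul_left, real_inner_comm, s1_euler1 hom sm, ← div_eq_inv_mul] at e2
  refine ⟨b, ρ, hb, b0, ⟨e1, e2, fun i j => sy _ _, fun j => ?_, e3, ?_,
    fun i j k => congrArg (‖x‖ ^ 2 * ·) (hj.s3 _ _ _),
    fun i j k => congrArg (‖x‖ ^ 2 * ·) (hj.s3' _ _ _), fun i j => ?_, fun k => ?_⟩, hρ, ?_⟩
  · simp [ar2, b0, s1_euler2 hom sm]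
  · simp only [ar2, glue_s2, ← Finset.mul_sum, hb.sum_frame]
    exact mul_eq_zero_of_right _ hj.t2
  · rw [ar3, ar2, glue_s3, glue_s2, b0, map_smul, glue_s2, s1_euler3 hom sm,
      show (-D2 u x) (b i) (b j) = -D2 u x (b i) (b j) from rfl]
    field_simp
  · simp only [ar3, glue_s3, ← Finset.mul_sum, hb.sum_frame]
    exact mul_eq_zero_of_right _ (hj.t3 _)
  · have := hb.inner_eq (gradient u x) (gradient u x)
    rw [e2, real_inner_self_eq_norm_sq] at this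
    simp [dtA, Fin.sum_univ_six] at this
    nlinarith [norm_nonneg (gradient u x)]

theorem cert_of (h2 : 2 ≤ d) (h6 : d ≤ 6) {g h : ℕ → PL} {η C : ℝ} (ok : BdOK g h)
    (ok' : ArrOK d g h η C) : Nonempty (Cert d) := by
  refine ⟨⟨PhOf h, XOf g, 5 / 8, η / C, by norm_num, by norm_num, div_pos ok'.η_pos ok'.C_pos,
    contDiff_PhOf h, contDiff_XOf g, bdry_of h2 h6 ok, fun u U hU hu hom x hx h0 hv hp => ?_,
    fun u U hU hu hom x hx h0 hv hp w hw => ?_⟩⟩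
  all_goals
    obtain ⟨b, ρ, hb, b0, ad, hρ, h1⟩ := glue_adp h2 h6 hU hu hom hx h0 hp
    have v0 := div_nonneg hv (norm_nonneg x)
  · have a := ok'.pos _ _ _ _ _ _ ad v0 hρ h1
    have nn : ∀ i ∈ Finset.univ, 0 ≤ ∑ j, ar2 b (‖x‖ • D2 u x) i j * ar2 b (‖x‖ • D2 u x) i j :=
      fun i _ => Finset.sum_nonneg fun j _ => mul_self_nonneg _
    have n0 : 0 ≤ iA (ar2 b (‖x‖ • D2 u x)) := Finset.sum_nonneg nn
    rw [phiOf, hb.PhOf_eq]
    refine ⟨(mul_nonneg ok'.η_pos.le n0).trans a, fun e => ?_⟩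
    have z := n0.antisymm' (nonpos_of_mul_nonpos_right (a.trans_eq e) ok'.η_pos)
    exact (smul_eq_zero.1 (hb.eq_zero fun i j => mul_self_eq_zero.1
      ((Finset.sum_eq_zero_iff_of_nonneg fun j _ => mul_self_nonneg _).1
        ((Finset.sum_eq_zero_iff_of_nonneg nn).1 z i (Finset.mem_univ i)) j
        (Finset.mem_univ j)))).resolve_left (norm_pos_iff.2 h0).ne'
  · have a := ok'.key _ _ _ _ _ _ (ar1 b w) ad v0 hρ h1 (by
      rw [ar1, b0, real_inner_smul_left, real_inner_comm, hw, mul_zero])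
    have c := mul_le_mul_of_nonneg_left (ok'.upper _ _ _ _ _ _ ad v0 hρ h1)
      (div_pos ok'.η_pos ok'.C_pos).le
    rw [← mul_assoc, div_mul_cancel₀ _ ok'.C_pos.ne'] at c
    rw [dvg_fldOf hb g hU hu hx h0, fderiv_phiOf hb h hU hu hx h0, real_inner_comm x,
      div_eq_inv_mul ⟪_, _⟫, ← real_inner_smul_left, ← real_inner_self_eq_norm_sq w,
      hb.inner_eq w w, phiOf, fldOf, hb.PhOf_eq, hb.XOf_eq, hb.XOf_eq]
    linarith

end Vale.Agent.P098
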