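import Vale.Agent.P098.S1.F.Jt

/-! P098 S1/F/Par: adapted arrays come from coordinates.
Plan: take a = S 1 1, b_i = S 1 i, c_i = S i i + S 1 1 / 4 (i = 2,3,4), o = w 1, e_i = w i, t_ijk = T i j k;
prove entrywise (funext, fin_cases), after putting all needed instances of the symmetry, trace and zero facts in context
(Fin.sum_univ_six), closing each goal by `show` or simp and then rfl or linarith. -/

noncomputable section

namespace Vale.Agent.P098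

theorem par_ext {α : Type} {f g : Fin 6 → α} (h0 : f 0 = g 0) (h1 : f 1 = g 1) (h2 : f 2 = g 2)
    (h3 : f 3 = g 3) (h4 : f 4 = g 4) (h5 : f 5 = g 5) : f = g := by
  funext i
  fin_cases i
  exacts [h0, h1, h2, h3, h4, h5]

/-- the coordinates of given arrays -/
def par_J (S : A2) (T : A3) (w : A1) : Jt :=
  ⟨S 1 1, S 1 2, S 1 3, S 1 4, S 1 5, S 2 2 + S 1 1 / 4, S 3 3 + S 1 1 / 4, S 4 4 + S 1 1 / 4,
    w 1, w 2, w 3, w 4, w 5,
    T 1 1 1, T 1 1 2, T 1 1 3, T 1 1 4, T 1 1 5, T 1 2 2, T 1 2 3, T 1 2 4, T 1 2 5, T 1 3 3,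
    T 1 3 4, T 1 3 5, T 1 4 4, T 1 4 5, T 2 2 2, T 2 2 3, T 2 2 4, T 2 2 5, T 2 3 3, T 2 3 4,
    T 2 3 5, T 2 4 4, T 2 4 5, T 3 3 3, T 3 3 4, T 3 3 5, T 3 4 4, T 3 4 5, T 4 4 4, T 4 4 5⟩

variable {x p : A1} {v ρ : ℝ} {S : A2} {T : A3}

theorem par_S (h : Adp x p v ρ S T) (w : A1) : S = (par_J S T w).S := by
  have h5 : S 5 5 = -(S 2 2 + S 1 1 / 4) - (S 3 3 + S 1 1 / 4) - (S 4 4 + S 1 1 / 4) - S 1 1 / 4 := by
    have h1 := h.s_tr
    rw [Fin.sum_univ_six, h.s_zero] at h1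
    linarith
  exact par_ext
    (par_ext (h.s_zero 0)
      (h.s_zero 1)
      (h.s_zero 2)
      (h.s_zero 3)
      (h.s_zero 4)
      (h.s_zero 5))
    (par_ext ((h.s_symm 1 0).trans (h.s_zero 1))
      rfl
      rfl
      rfl
      rfl
      rfl)
    (par_ext ((h.s_symm 2 0).trans (h.s_zero 2))
      (h.s_symm 2 1)
      (add_sub_cancel_right _ _).symm
      (h.s_diag 2 3 (by decide) (by decide) (by decide))
      (h.s_diag 2 4 (by decide) (by decide) (by decide))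
      (h.s_diag 2 5 (by decide) (by decide) (by decide)))
    (par_ext ((h.s_symm 3 0).trans (h.s_zero 3))
      (h.s_symm 3 1)
      (h.s_diag 3 2 (by decide) (by decide) (by decide))
      (add_sub_cancel_right _ _).symm
      (h.s_diag 3 4 (by decide) (by decide) (by decide))
      (h.s_diag 3 5 (by decide) (by decide) (by decide)))
    (par_ext ((h.s_symm 4 0).trans (h.s_zero 4))
      (h.s_symm 4 1)
      (h.s_diag 4 2 (by decide) (by decide) (by decide))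
      (h.s_diag 4 3 (by decide) (by decide) (by decide))
      (add_sub_cancel_right _ _).symm
      (h.s_diag 4 5 (by decide) (by decide) (by decide)))
    (par_ext ((h.s_symm 5 0).trans (h.s_zero 5))
      (h.s_symm 5 1)
      (h.s_diag 5 2 (by decide) (by decide) (by decide))
      (h.s_diag 5 3 (by decide) (by decide) (by decide))
      (h.s_diag 5 4 (by decide) (by decide) (by decide))
      h5)

theorem par_tr1 (h : Adp x p v ρ S T) :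
    T 1 5 5 = -T 1 1 1 - T 1 2 2 - T 1 3 3 - T 1 4 4 := by
  have h1 := h.t_tr 1
  rw [Fin.sum_univ_six] at h1
  linarith [h.t_zero 0 1, h.s_zero 1,
    h.t_symm1 1 0 0,
    h.t_symm2 0 1 0]

theorem par_tr2 (h : Adp x p v ρ S T) :
    T 2 5 5 = -T 1 1 2 - T 2 2 2 - T 2 3 3 - T 2 4 4 := by
  have h1 := h.t_tr 2
  rw [Fin.sum_univ_six] at h1
  linarith [h.t_zero 0 2, h.s_zero 2,
    h.t_symm1 2 0 0,
    h.t_symm2 0 2 0,
    h.t_symm1 2 1 1,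
    h.t_symm2 1 2 1]

theorem par_tr3 (h : Adp x p v ρ S T) :
    T 3 5 5 = -T 1 1 3 - T 2 2 3 - T 3 3 3 - T 3 4 4 := by
  have h1 := h.t_tr 3
  rw [Fin.sum_univ_six] at h1
  linarith [h.t_zero 0 3, h.s_zero 3,
    h.t_symm1 3 0 0,
    h.t_symm2 0 3 0,
    h.t_symm1 3 1 1,
    h.t_symm2 1 3 1,
    h.t_symm1 3 2 2,
    h.t_symm2 2 3 2]

theorem par_tr4 (h : Adp x p v ρ S T) :
    T 4 5 5 = -T 1 1 4 - T 2 2 4 - T 3 3 4 - T 4 4 4 := by
  have h1 := h.t_tr 4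
  rw [Fin.sum_univ_six] at h1
  linarith [h.t_zero 0 4, h.s_zero 4,
    h.t_symm1 4 0 0,
    h.t_symm2 0 4 0,
    h.t_symm1 4 1 1,
    h.t_symm2 1 4 1,
    h.t_symm1 4 2 2,
    h.t_symm2 2 4 2,
    h.t_symm1 4 3 3,
    h.t_symm2 3 4 3]

theorem par_tr5 (h : Adp x p v ρ S T) :
    T 5 5 5 = -T 1 1 5 - T 2 2 5 - T 3 3 5 - T 4 4 5 := by
  have h1 := h.t_tr 5
  rw [Fin.sum_univ_six] at h1
  linarith [h.t_zero 0 5, h.s_zero 5,
    h.t_symm1 5 0 0,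
    h.t_symm2 0 5 0,
    h.t_symm1 5 1 1,
    h.t_symm2 1 5 1,
    h.t_symm1 5 2 2,
    h.t_symm2 2 5 2,
    h.t_symm1 5 3 3,
    h.t_symm2 3 5 3,
    h.t_symm1 5 4 4,
    h.t_symm2 4 5 4]

theorem par_T0 (h : Adp x p v ρ S T) (w : A1) : T 0 = (par_J S T w).T 0 :=
  have z : ∀ i j, T 0 i j = -(par_J S T w).S i j := fun i j => by
    rw [← par_S h w, h.t_zero]
  have z0 : ∀ i j, (par_J S T w).S i j = 0 → T 0 i j = 0 := fun i j e => by
    rw [z, e, neg_zero]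
  par_ext
    (par_ext (z0 0 0 rfl)
      (z0 0 1 rfl)
      (z0 0 2 rfl)
      (z0 0 3 rfl)
      (z0 0 4 rfl)
      (z0 0 5 rfl))
    (par_ext ((h.t_symm2 0 1 0).trans (z0 0 1 rfl))
      (z 1 1)
      (z 1 2)
      (z 1 3)
      (z 1 4)
      (z 1 5))
    (par_ext ((h.t_symm2 0 2 0).trans (z0 0 2 rfl))
      ((h.t_symm2 0 2 1).trans (z 1 2))
      (z 2 2)
      (z0 2 3 rfl)
      (z0 2 4 rfl)
      (z0 2 5 rfl))
    (par_ext ((h.t_symm2 0 3 0).trans (z0 0 3 rfl))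
      ((h.t_symm2 0 3 1).trans (z 1 3))
      ((h.t_symm2 0 3 2).trans (z0 2 3 rfl))
      (z 3 3)
      (z0 3 4 rfl)
      (z0 3 5 rfl))
    (par_ext ((h.t_symm2 0 4 0).trans (z0 0 4 rfl))
      ((h.t_symm2 0 4 1).trans (z 1 4))
      ((h.t_symm2 0 4 2).trans (z0 2 4 rfl))
      ((h.t_symm2 0 4 3).trans (z0 3 4 rfl))
      (z 4 4)
      (z0 4 5 rfl))
    (par_ext ((h.t_symm2 0 5 0).trans (z0 0 5 rfl))
      ((h.t_symm2 0 5 1).trans (z 1 5))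
      ((h.t_symm2 0 5 2).trans (z0 2 5 rfl))
      ((h.t_symm2 0 5 3).trans (z0 3 5 rfl))
      ((h.t_symm2 0 5 4).trans (z0 4 5 rfl))
      (z 5 5))

theorem par_T1 (h : Adp x p v ρ S T) (w : A1) : T 1 = (par_J S T w).T 1 :=
  have z : ∀ i j, T 0 i j = -(par_J S T w).S i j := fun i j => by
    rw [← par_S h w, h.t_zero]
  have z0 : ∀ i j, (par_J S T w).S i j = 0 → T 0 i j = 0 := fun i j e => by
    rw [z, e, neg_zero]
  par_ext
    (par_ext ((h.t_symm1 1 0 0).trans ((h.t_symm2 0 1 0).trans (z0 0 1 rfl)))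
      ((h.t_symm1 1 0 1).trans (z 1 1))
      ((h.t_symm1 1 0 2).trans (z 1 2))
      ((h.t_symm1 1 0 3).trans (z 1 3))
      ((h.t_symm1 1 0 4).trans (z 1 4))
      ((h.t_symm1 1 0 5).trans (z 1 5)))
    (par_ext ((h.t_symm2 1 1 0).trans ((h.t_symm1 1 0 1).trans (z 1 1)))
      rfl
      rfl
      rfl
      rfl
      rfl)
    (par_ext ((h.t_symm2 1 2 0).trans ((h.t_symm1 1 0 2).trans (z 1 2)))
      (h.t_symm2 1 2 1)
      rfl
      rfl
      rfl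
      rfl)
    (par_ext ((h.t_symm2 1 3 0).trans ((h.t_symm1 1 0 3).trans (z 1 3)))
      (h.t_symm2 1 3 1)
      (h.t_symm2 1 3 2)
      rfl
      rfl
      rfl)
    (par_ext ((h.t_symm2 1 4 0).trans ((h.t_symm1 1 0 4).trans (z 1 4)))
      (h.t_symm2 1 4 1)
      (h.t_symm2 1 4 2)
      (h.t_symm2 1 4 3)
      rfl
      rfl)
    (par_ext ((h.t_symm2 1 5 0).trans ((h.t_symm1 1 0 5).trans (z 1 5)))
      (h.t_symm2 1 5 1)
      (h.t_symm2 1 5 2)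
      (h.t_symm2 1 5 3)
      (h.t_symm2 1 5 4)
      (par_tr1 h))

theorem par_T2 (h : Adp x p v ρ S T) (w : A1) : T 2 = (par_J S T w).T 2 :=
  have z : ∀ i j, T 0 i j = -(par_J S T w).S i j := fun i j => by
    rw [← par_S h w, h.t_zero]
  have z0 : ∀ i j, (par_J S T w).S i j = 0 → T 0 i j = 0 := fun i j e => by
    rw [z, e, neg_zero]
  par_ext
    (par_ext ((h.t_symm1 2 0 0).trans ((h.t_symm2 0 2 0).trans (z0 0 2 rfl)))
      ((h.t_symm1 2 0 1).trans ((h.t_symm2 0 2 1).trans (z 1 2)))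
      ((h.t_symm1 2 0 2).trans (z 2 2))
      ((h.t_symm1 2 0 3).trans (z0 2 3 rfl))
      ((h.t_symm1 2 0 4).trans (z0 2 4 rfl))
      ((h.t_symm1 2 0 5).trans (z0 2 5 rfl)))
    (par_ext ((h.t_symm1 2 1 0).trans ((h.t_symm2 1 2 0).trans ((h.t_symm1 1 0 2).trans (z 1 2))))
      ((h.t_symm1 2 1 1).trans (h.t_symm2 1 2 1))
      (h.t_symm1 2 1 2)
      (h.t_symm1 2 1 3)
      (h.t_symm1 2 1 4)
      (h.t_symm1 2 1 5))
    (par_ext ((h.t_symm2 2 2 0).trans ((h.t_symm1 2 0 2).trans (z 2 2)))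
      ((h.t_symm2 2 2 1).trans (h.t_symm1 2 1 2))
      rfl
      rfl
      rfl
      rfl)
    (par_ext ((h.t_symm2 2 3 0).trans ((h.t_symm1 2 0 3).trans (z0 2 3 rfl)))
      ((h.t_symm2 2 3 1).trans (h.t_symm1 2 1 3))
      (h.t_symm2 2 3 2)
      rfl
      rfl
      rfl)
    (par_ext ((h.t_symm2 2 4 0).trans ((h.t_symm1 2 0 4).trans (z0 2 4 rfl)))
      ((h.t_symm2 2 4 1).trans (h.t_symm1 2 1 4))
      (h.t_symm2 2 4 2)
      (h.t_symm2 2 4 3)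
      rfl
      rfl)
    (par_ext ((h.t_symm2 2 5 0).trans ((h.t_symm1 2 0 5).trans (z0 2 5 rfl)))
      ((h.t_symm2 2 5 1).trans (h.t_symm1 2 1 5))
      (h.t_symm2 2 5 2)
      (h.t_symm2 2 5 3)
      (h.t_symm2 2 5 4)
      (par_tr2 h))

theorem par_T3 (h : Adp x p v ρ S T) (w : A1) : T 3 = (par_J S T w).T 3 :=
  have z : ∀ i j, T 0 i j = -(par_J S T w).S i j := fun i j => by
    rw [← par_S h w, h.t_zero]
  have z0 : ∀ i j, (par_J S T w).S i j = 0 → T 0 i j = 0 := fun i j e => by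
    rw [z, e, neg_zero]
  par_ext
    (par_ext ((h.t_symm1 3 0 0).trans ((h.t_symm2 0 3 0).trans (z0 0 3 rfl)))
      ((h.t_symm1 3 0 1).trans ((h.t_symm2 0 3 1).trans (z 1 3)))
      ((h.t_symm1 3 0 2).trans ((h.t_symm2 0 3 2).trans (z0 2 3 rfl)))
      ((h.t_symm1 3 0 3).trans (z 3 3))
      ((h.t_symm1 3 0 4).trans (z0 3 4 rfl))
      ((h.t_symm1 3 0 5).trans (z0 3 5 rfl)))
    (par_ext ((h.t_symm1 3 1 0).trans ((h.t_symm2 1 3 0).trans ((h.t_symm1 1 0 3).trans (z 1 3))))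
      ((h.t_symm1 3 1 1).trans (h.t_symm2 1 3 1))
      ((h.t_symm1 3 1 2).trans (h.t_symm2 1 3 2))
      (h.t_symm1 3 1 3)
      (h.t_symm1 3 1 4)
      (h.t_symm1 3 1 5))
    (par_ext ((h.t_symm1 3 2 0).trans ((h.t_symm2 2 3 0).trans ((h.t_symm1 2 0 3).trans (z0 2 3 rfl))))
      ((h.t_symm1 3 2 1).trans ((h.t_symm2 2 3 1).trans (h.t_symm1 2 1 3)))
      ((h.t_symm1 3 2 2).trans (h.t_symm2 2 3 2))
      (h.t_symm1 3 2 3)
      (h.t_symm1 3 2 4)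
      (h.t_symm1 3 2 5))
    (par_ext ((h.t_symm2 3 3 0).trans ((h.t_symm1 3 0 3).trans (z 3 3)))
      ((h.t_symm2 3 3 1).trans (h.t_symm1 3 1 3))
      ((h.t_symm2 3 3 2).trans (h.t_symm1 3 2 3))
      rfl
      rfl
      rfl)
    (par_ext ((h.t_symm2 3 4 0).trans ((h.t_symm1 3 0 4).trans (z0 3 4 rfl)))
      ((h.t_symm2 3 4 1).trans (h.t_symm1 3 1 4))
      ((h.t_symm2 3 4 2).trans (h.t_symm1 3 2 4))
      (h.t_symm2 3 4 3)
      rfl
      rfl)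
    (par_ext ((h.t_symm2 3 5 0).trans ((h.t_symm1 3 0 5).trans (z0 3 5 rfl)))
      ((h.t_symm2 3 5 1).trans (h.t_symm1 3 1 5))
      ((h.t_symm2 3 5 2).trans (h.t_symm1 3 2 5))
      (h.t_symm2 3 5 3)
      (h.t_symm2 3 5 4)
      (par_tr3 h))

theorem par_T4 (h : Adp x p v ρ S T) (w : A1) : T 4 = (par_J S T w).T 4 :=
  have z : ∀ i j, T 0 i j = -(par_J S T w).S i j := fun i j => by
    rw [← par_S h w, h.t_zero]
  have z0 : ∀ i j, (par_J S T w).S i j = 0 → T 0 i j = 0 := fun i j e => by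
    rw [z, e, neg_zero]
  par_ext
    (par_ext ((h.t_symm1 4 0 0).trans ((h.t_symm2 0 4 0).trans (z0 0 4 rfl)))
      ((h.t_symm1 4 0 1).trans ((h.t_symm2 0 4 1).trans (z 1 4)))
      ((h.t_symm1 4 0 2).trans ((h.t_symm2 0 4 2).trans (z0 2 4 rfl)))
      ((h.t_symm1 4 0 3).trans ((h.t_symm2 0 4 3).trans (z0 3 4 rfl)))
      ((h.t_symm1 4 0 4).trans (z 4 4))
      ((h.t_symm1 4 0 5).trans (z0 4 5 rfl)))
    (par_ext ((h.t_symm1 4 1 0).trans ((h.t_symm2 1 4 0).trans ((h.t_symm1 1 0 4).trans (z 1 4))))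
      ((h.t_symm1 4 1 1).trans (h.t_symm2 1 4 1))
      ((h.t_symm1 4 1 2).trans (h.t_symm2 1 4 2))
      ((h.t_symm1 4 1 3).trans (h.t_symm2 1 4 3))
      (h.t_symm1 4 1 4)
      (h.t_symm1 4 1 5))
    (par_ext ((h.t_symm1 4 2 0).trans ((h.t_symm2 2 4 0).trans ((h.t_symm1 2 0 4).trans (z0 2 4 rfl))))
      ((h.t_symm1 4 2 1).trans ((h.t_symm2 2 4 1).trans (h.t_symm1 2 1 4)))
      ((h.t_symm1 4 2 2).trans (h.t_symm2 2 4 2))
      ((h.t_symm1 4 2 3).trans (h.t_symm2 2 4 3))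
      (h.t_symm1 4 2 4)
      (h.t_symm1 4 2 5))
    (par_ext ((h.t_symm1 4 3 0).trans ((h.t_symm2 3 4 0).trans ((h.t_symm1 3 0 4).trans (z0 3 4 rfl))))
      ((h.t_symm1 4 3 1).trans ((h.t_symm2 3 4 1).trans (h.t_symm1 3 1 4)))
      ((h.t_symm1 4 3 2).trans ((h.t_symm2 3 4 2).trans (h.t_symm1 3 2 4)))
      ((h.t_symm1 4 3 3).trans (h.t_symm2 3 4 3))
      (h.t_symm1 4 3 4)
      (h.t_symm1 4 3 5))
    (par_ext ((h.t_symm2 4 4 0).trans ((h.t_symm1 4 0 4).trans (z 4 4)))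
      ((h.t_symm2 4 4 1).trans (h.t_symm1 4 1 4))
      ((h.t_symm2 4 4 2).trans (h.t_symm1 4 2 4))
      ((h.t_symm2 4 4 3).trans (h.t_symm1 4 3 4))
      rfl
      rfl)
    (par_ext ((h.t_symm2 4 5 0).trans ((h.t_symm1 4 0 5).trans (z0 4 5 rfl)))
      ((h.t_symm2 4 5 1).trans (h.t_symm1 4 1 5))
      ((h.t_symm2 4 5 2).trans (h.t_symm1 4 2 5))
      ((h.t_symm2 4 5 3).trans (h.t_symm1 4 3 5))
      (h.t_symm2 4 5 4)
      (par_tr4 h))

theorem par_T5 (h : Adp x p v ρ S T) (w : A1) : T 5 = (par_J S T w).T 5 :=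
  have z : ∀ i j, T 0 i j = -(par_J S T w).S i j := fun i j => by
    rw [← par_S h w, h.t_zero]
  have z0 : ∀ i j, (par_J S T w).S i j = 0 → T 0 i j = 0 := fun i j e => by
    rw [z, e, neg_zero]
  par_ext
    (par_ext ((h.t_symm1 5 0 0).trans ((h.t_symm2 0 5 0).trans (z0 0 5 rfl)))
      ((h.t_symm1 5 0 1).trans ((h.t_symm2 0 5 1).trans (z 1 5)))
      ((h.t_symm1 5 0 2).trans ((h.t_symm2 0 5 2).trans (z0 2 5 rfl)))
      ((h.t_symm1 5 0 3).trans ((h.t_symm2 0 5 3).trans (z0 3 5 rfl)))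
      ((h.t_symm1 5 0 4).trans ((h.t_symm2 0 5 4).trans (z0 4 5 rfl)))
      ((h.t_symm1 5 0 5).trans (z 5 5)))
    (par_ext ((h.t_symm1 5 1 0).trans ((h.t_symm2 1 5 0).trans ((h.t_symm1 1 0 5).trans (z 1 5))))
      ((h.t_symm1 5 1 1).trans (h.t_symm2 1 5 1))
      ((h.t_symm1 5 1 2).trans (h.t_symm2 1 5 2))
      ((h.t_symm1 5 1 3).trans (h.t_symm2 1 5 3))
      ((h.t_symm1 5 1 4).trans (h.t_symm2 1 5 4))
      ((h.t_symm1 5 1 5).trans (par_tr1 h)))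
    (par_ext ((h.t_symm1 5 2 0).trans ((h.t_symm2 2 5 0).trans ((h.t_symm1 2 0 5).trans (z0 2 5 rfl))))
      ((h.t_symm1 5 2 1).trans ((h.t_symm2 2 5 1).trans (h.t_symm1 2 1 5)))
      ((h.t_symm1 5 2 2).trans (h.t_symm2 2 5 2))
      ((h.t_symm1 5 2 3).trans (h.t_symm2 2 5 3))
      ((h.t_symm1 5 2 4).trans (h.t_symm2 2 5 4))
      ((h.t_symm1 5 2 5).trans (par_tr2 h)))
    (par_ext ((h.t_symm1 5 3 0).trans ((h.t_symm2 3 5 0).trans ((h.t_symm1 3 0 5).trans (z0 3 5 rfl))))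
      ((h.t_symm1 5 3 1).trans ((h.t_symm2 3 5 1).trans (h.t_symm1 3 1 5)))
      ((h.t_symm1 5 3 2).trans ((h.t_symm2 3 5 2).trans (h.t_symm1 3 2 5)))
      ((h.t_symm1 5 3 3).trans (h.t_symm2 3 5 3))
      ((h.t_symm1 5 3 4).trans (h.t_symm2 3 5 4))
      ((h.t_symm1 5 3 5).trans (par_tr3 h)))
    (par_ext ((h.t_symm1 5 4 0).trans ((h.t_symm2 4 5 0).trans ((h.t_symm1 4 0 5).trans (z0 4 5 rfl))))
      ((h.t_symm1 5 4 1).trans ((h.t_symm2 4 5 1).trans (h.t_symm1 4 1 5)))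
      ((h.t_symm1 5 4 2).trans ((h.t_symm2 4 5 2).trans (h.t_symm1 4 2 5)))
      ((h.t_symm1 5 4 3).trans ((h.t_symm2 4 5 3).trans (h.t_symm1 4 3 5)))
      ((h.t_symm1 5 4 4).trans (h.t_symm2 4 5 4))
      ((h.t_symm1 5 4 5).trans (par_tr4 h)))
    (par_ext ((h.t_symm2 5 5 0).trans ((h.t_symm1 5 0 5).trans (z 5 5)))
      ((h.t_symm2 5 5 1).trans ((h.t_symm1 5 1 5).trans (par_tr1 h)))
      ((h.t_symm2 5 5 2).trans ((h.t_symm1 5 2 5).trans (par_tr2 h)))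
      ((h.t_symm2 5 5 3).trans ((h.t_symm1 5 3 5).trans (par_tr3 h)))
      ((h.t_symm2 5 5 4).trans ((h.t_symm1 5 4 5).trans (par_tr4 h)))
      (par_tr5 h))

theorem par_of {x p : A1} {v ρ : ℝ} {S : A2} {T : A3} {w : A1} (h : Adp x p v ρ S T)
    (hw : w 0 = 0) : ∃ J : Jt, x = xE ∧ p = pE v ρ ∧ S = J.S ∧ T = J.T ∧ w = J.w :=
  ⟨par_J S T w, h.hx, h.hp, par_S h w, par_ext (par_T0 h w) (par_T1 h w) (par_T2 h w) (par_T3 h w)
    (par_T4 h w) (par_T5 h w), par_ext hw rfl rfl rfl rfl rfl⟩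

end Vale.Agent.P098
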