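import Vale.Agent.P098.S1.F.Psd
import Vale.Agent.P098.S1.F.Par
import Vale.Agent.P098.S1.F.Glue

/-! P098 S1/F/Fnl: from the coordinate inequality to `ArrOK`.
Plan: with s = a^2 + sum b_i^2 + sum c_i^2 (four c's, the last is -c2-c3-c4): piJ 0 6 6 + piJ 1 6 6 + piJ 2 6 6 = s,
piJ 0 4 4 + piJ 1 4 4 + piJ 2 4 4 = o^2 s, iA J.S = 5/4 a^2 + 2 sum b_i^2 + sum c_i^2 ≤ 2 s, so by piJ_nonneg
trP J ≥ iA J.S * (1 + o^2) / 2. Take η = 5 μ / 22. key: par_of and H. pos: apply H to J with (o, e) replaced by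
(t, 0) and (-t, 0) (S and T do not change, by rfl); XT and GWT are odd in w, dtA w w = t^2; add, let t be large.
upper: |gev (h s) P v| ≤ l1 norm by gev_abs_le (P = ρ^2 + v^2), 0 ≤ PA s ≤ iA (bA = ρ^2 (a^2 + sum b_i^2), aA = ρ^2 a);
C = 1 + sum of the three l1 norms. -/

noncomputable section

namespace Vale.Agent.P098

theorem fnl_iA (J : Jt) : iA J.S = 5 / 4 * J.a ^ 2 +
    2 * (J.b2 ^ 2 + J.b3 ^ 2 + J.b4 ^ 2 + J.b5 ^ 2) +
    (J.c2 ^ 2 + J.c3 ^ 2 + J.c4 ^ 2 + (-J.c2 - J.c3 - J.c4) ^ 2) := by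
  simp [iA, frA, Jt.S, Fin.sum_univ_six]
  ring

theorem fnl_two (f : ℕ → ℝ) (hf : ∀ i, 0 ≤ f i) : f 4 + f 6 ≤ ∑ i ∈ Finset.range 7, f i := by
  simp only [Finset.sum_range_succ, Finset.sum_range_zero]
  linarith [hf 0, hf 1, hf 2, hf 3, hf 5]

theorem fnl_tr (J : Jt) : iA J.S * (1 + J.o ^ 2) / 2 ≤ trP J := by
  have h0 := fnl_two (fun i => piJ J 0 i i) (piJ_nonneg J 0)
  have h1 := fnl_two (fun i => piJ J 1 i i) (piJ_nonneg J 1)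
  have h2 := fnl_two (fun i => piJ J 2 i i) (piJ_nonneg J 2)
  have h3 : ∀ l, 0 ≤ ∑ i ∈ Finset.range 7, piJ J l i i :=
    fun l => Finset.sum_nonneg fun i _ => piJ_nonneg J l i
  have e : piJ J 0 4 4 + piJ J 0 6 6 + (piJ J 1 4 4 + piJ J 1 6 6) + (piJ J 2 4 4 + piJ J 2 6 6) =
      (J.a ^ 2 + (J.b2 ^ 2 + J.b3 ^ 2 + J.b4 ^ 2 + J.b5 ^ 2) +
        (J.c2 ^ 2 + J.c3 ^ 2 + J.c4 ^ 2 + (-J.c2 - J.c3 - J.c4) ^ 2)) * (1 + J.o ^ 2) := by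
    simp only [piJ, WW, YY, W0, W1, W2, Y04, Y06, Y14, Y16, Y24, Y26, dw]
    ring
  have h4 : iA J.S / 2 ≤ J.a ^ 2 + (J.b2 ^ 2 + J.b3 ^ 2 + J.b4 ^ 2 + J.b5 ^ 2) +
      (J.c2 ^ 2 + J.c3 ^ 2 + J.c4 ^ 2 + (-J.c2 - J.c3 - J.c4) ^ 2) := by
    rw [fnl_iA]
    linarith [sq_nonneg J.a, sq_nonneg J.c2, sq_nonneg J.c3, sq_nonneg J.c4,
      sq_nonneg (-J.c2 - J.c3 - J.c4)]
  have h5 := mul_le_mul_of_nonneg_right h4 (by positivity : 0 ≤ 1 + J.o ^ 2)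
  unfold trP
  rw [Finset.sum_range_succ, Finset.sum_range_succ, Finset.sum_range_succ, Finset.sum_range_succ,
    Finset.sum_range_succ, Finset.sum_range_succ, Finset.sum_range_one]
  linarith [h3 3, h3 4, h3 5, h3 6]

theorem fnl_iA0 (S : A2) : 0 ≤ iA S := by
  unfold iA frA
  exact Finset.sum_nonneg fun _ _ => Finset.sum_nonneg fun _ _ => mul_self_nonneg _

theorem fnl_PA (J : Jt) {ρ v : ℝ} (h : ρ ^ 2 ≤ 1) (s : ℕ) :
    0 ≤ PA (pE v ρ) J.S s ∧ PA (pE v ρ) J.S s ≤ iA J.S := by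
  have e1 : bA (pE v ρ) J.S =
      ρ ^ 2 * (J.a ^ 2 + (J.b2 ^ 2 + J.b3 ^ 2 + J.b4 ^ 2 + J.b5 ^ 2)) := by
    simp [bA, dtA, q1A, mvA, pE, Jt.S, Fin.sum_univ_six]
    ring
  have e2 : aA (pE v ρ) J.S = ρ ^ 2 * J.a := by
    simp [aA, dtA, q1A, mvA, pE, Jt.S, Fin.sum_univ_six]
    ring
  have h1 : J.a ^ 2 + (J.b2 ^ 2 + J.b3 ^ 2 + J.b4 ^ 2 + J.b5 ^ 2) ≤ iA J.S := by
    rw [fnl_iA]
    linarith [sq_nonneg J.a, sq_nonneg J.c2, sq_nonneg J.c3, sq_nonneg J.c4,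
      sq_nonneg (-J.c2 - J.c3 - J.c4), sq_nonneg J.b2, sq_nonneg J.b3, sq_nonneg J.b4,
      sq_nonneg J.b5]
  have h2 : 0 ≤ J.b2 ^ 2 + J.b3 ^ 2 + J.b4 ^ 2 + J.b5 ^ 2 := by positivity
  match s with
  | 0 => exact ⟨fnl_iA0 _, le_rfl⟩
  | 1 =>
    show 0 ≤ bA _ _ ∧ bA _ _ ≤ _
    rw [e1]
    exact ⟨by positivity, (mul_le_of_le_one_left (by positivity) h).trans h1⟩
  | 2 =>
    show 0 ≤ aA _ _ * aA _ _ ∧ aA _ _ * aA _ _ ≤ _
    rw [e2]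
    refine ⟨mul_self_nonneg _, ?_⟩
    have h3 : ρ ^ 2 * ρ ^ 2 ≤ 1 := mul_le_one₀ h (sq_nonneg ρ) h
    have h4 := mul_le_of_le_one_left (sq_nonneg J.a) h3
    linarith
  | _ + 3 => exact ⟨le_rfl, fnl_iA0 _⟩

theorem fnl_dl (t : ℝ) (e y : A1) : dtA (fun i => t * e i) y = t * dtA e y := by
  simp only [dtA, Finset.mul_sum, mul_assoc]

theorem fnl_dr (t : ℝ) (e y : A1) : dtA y (fun i => t * e i) = t * dtA y e := by
  simp only [dtA, Finset.mul_sum, mul_left_comm]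

theorem fnl_XT (g : ℕ → PL) (p : A1) (v : ℝ) (S : A2) (T : A3) (t : ℝ) (e : A1) :
    XT g p v S T (fun i => t * e i) = t * XT g p v S T e := by
  simp only [XT, fnl_dl, Finset.mul_sum, mul_left_comm]

theorem fnl_GWT (h : ℕ → PL) (x p : A1) (v : ℝ) (S : A2) (T : A3) (t : ℝ) (e : A1) :
    GWT h x p v S T (fun i => t * e i) = t * GWT h x p v S T e := by
  have e1 : ∀ s, GWA x p S T (fun i => t * e i) s = t * GWA x p S T e s := fun s => by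
    simp only [GWA, Finset.mul_sum, mul_assoc]
  simp only [GWT, fnl_dr, e1]
  rw [Finset.mul_sum]
  exact Finset.sum_congr rfl fun s _ => by ring

theorem fnl_quad {a b c : ℝ} (h : ∀ t : ℝ, a * t ^ 2 ≤ b + c * t) : a ≤ 0 := by
  by_contra ha
  have ha : 0 < a := not_le.1 ha
  have h1 := h (|b| / a + 1)
  have h2 := h (-(|b| / a + 1))
  have h3 : 0 ≤ |b| / a := by positivity
  have h4 : a * (|b| / a) = |b| := mul_div_cancel₀ _ ha.ne'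
  have h5 : |b| / a + 1 ≤ (|b| / a + 1) ^ 2 := by nlinarith
  have h6 := mul_le_mul_of_nonneg_left h5 ha.le
  have h7 := le_abs_self b
  rw [neg_sq] at h2
  linarith

theorem arrOK_of {n : ℕ} {g h : ℕ → PL} {μ : ℝ} (hμ : 0 < μ)
    (H : ∀ (J : Jt) (ρ v : ℝ), 0 ≤ v → 0 ≤ ρ → ρ ^ 2 + v ^ 2 ≤ 1 → μ * trP J ≤ EE n g h J ρ v) :
    ∃ η C, ArrOK n g h η C := by
  refine ⟨5 * μ / 22, 1 + ∑ s ∈ Finset.range 3, ((((h s).map fun e => e.2.2.natAbs).sum : ℕ) : ℝ),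
    by positivity, by positivity, ?_, ?_, ?_⟩
  · intro x p v ρ S T w ad hv hρ h1 hw
    obtain ⟨J, rfl, rfl, rfl, rfl, rfl⟩ := par_of ad hw
    have h2 := H J ρ v hv hρ h1
    have h3 := fnl_tr J
    have h4 := fnl_iA0 J.S
    have h5 : 5 / 22 * iA J.S ≤ trP J := by nlinarith [mul_nonneg h4 (sq_nonneg J.o)]
    have h6 := mul_le_mul_of_nonneg_left h5 hμ.le
    unfold EE at h2
    linarith
  · intro x p v ρ S T ad hv hρ h1
    obtain ⟨J, rfl, rfl, rfl, rfl, -⟩ := par_of (w := 0) ad rfl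
    have key : ∀ t : ℝ, (μ * iA J.S / 2 - 11 / 5 * PT h (pE v ρ) v J.S) * t ^ 2 ≤
        (DVT g xE (pE v ρ) v J.S J.T - ((n : ℝ) - 1) * XT g (pE v ρ) v J.S J.T xE
          - ((n : ℝ) - 2) ^ 2 / 4 * PT h (pE v ρ) v J.S - μ * iA J.S / 2) +
        ((-6 / 5) * XT g (pE v ρ) v J.S J.T ![0, 1, 0, 0, 0, 0]
          - GWT h xE (pE v ρ) v J.S J.T ![0, 1, 0, 0, 0, 0]) * t := by
      intro t
      obtain ⟨J', e1, e2, e3, e4⟩ : ∃ J' : Jt, J'.S = J.S ∧ J'.T = J.T ∧ J'.o = t ∧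
          J'.w = fun i => t * (![0, 1, 0, 0, 0, 0] : A1) i := by
        refine ⟨{ J with o := t, e2 := 0, e3 := 0, e4 := 0, e5 := 0 }, rfl, rfl, rfl, ?_⟩
        funext i
        fin_cases i <;> simp [Jt.w]
      have h2 := (mul_le_mul_of_nonneg_left (fnl_tr J') hμ.le).trans (H J' ρ v hv hρ h1)
      have e5 : dtA ![0, 1, 0, 0, 0, 0] ![0, 1, 0, 0, 0, 0] = 1 := by
        simp [dtA, Fin.sum_univ_six]
      unfold EE at h2
      rw [e1, e2, e3, e4, fnl_XT, fnl_GWT, fnl_dl, fnl_dr, e5] at h2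
      linarith
    linarith [fnl_quad key]
  · intro x p v ρ S T ad hv hρ h1
    obtain ⟨J, rfl, rfl, rfl, rfl, -⟩ := par_of (w := 0) ad rfl
    have e1 : dtA (pE v ρ) (pE v ρ) = ρ ^ 2 + v ^ 2 := by
      simp [dtA, pE, Fin.sum_univ_six]
      ring
    have h2 : |dtA (pE v ρ) (pE v ρ)| ≤ 1 := by
      rw [e1, abs_of_nonneg (by positivity)]
      exact h1
    have h3 : |v| ≤ 1 := (sq_le_one_iff_abs_le_one v).1 (by linarith [sq_nonneg ρ])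
    have h4 : ρ ^ 2 ≤ 1 := by linarith [sq_nonneg v]
    have h5 := fnl_iA0 J.S
    rw [add_mul, Finset.sum_mul, one_mul]
    refine le_trans (Finset.sum_le_sum fun s _ => ?_) (le_add_of_nonneg_left h5)
    exact mul_le_mul ((le_abs_self _).trans (gev_abs_le _ h2 h3)) (fnl_PA J h4 s).2
      (fnl_PA J h4 s).1 (Nat.cast_nonneg _)

end Vale.Agent.P098
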