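import Vale.Agent.P098.S1.F.Rl
import Vale.Agent.P098.S1.F.ExA
import Vale.Agent.P098.S1.F.ExB
import Vale.Agent.P098.S1.F.ExC

/-! P098 S1/F/Tot: the excess as a combination of the expanded pieces.
Plan: dtA (pE v ρ) (pE v ρ) = ρ^2 + v^2; unfold totR, itE (List.map_cons, List.sum_cons), atR by rfl lemmas, rewrite the
tev terms from right to left with exX0 .. exX19, exP0 .. exP2; unfold EE, DVT, XT, GWT, PT with Finset.sum_range_succ;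
push_cast; ring (keep DVA, XA, GWA, PA, dtA, gev as atoms). -/

noncomputable section

namespace Vale.Agent.P098

theorem tot_itE (D : Dat) (J : Jt) (ρ v : ℝ) :
    totR D J ρ v (itE (-20 * ((D.n : ℤ) - 1)) (-5 * ((D.n : ℤ) - 2) ^ 2)) =
      11520 * EE D.n D.g D.h J ρ v := by
  have hp : dtA (pE v ρ) (pE v ρ) = ρ ^ 2 + v ^ 2 := by
    simp [dtA, pE, Fin.sum_univ_succ]
    ring
  have a0 : ∀ t j, atR D ρ v 0 t j = gev (D.g t) (ρ ^ 2 + v ^ 2) v := fun _ _ => rfl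
  have a1 : ∀ t j, atR D ρ v 1 t j = gev (gdP (D.g t)) (ρ ^ 2 + v ^ 2) v := fun _ _ => rfl
  have a2 : ∀ t j, atR D ρ v 2 t j = gev (gdV (D.g t)) (ρ ^ 2 + v ^ 2) v := fun _ _ => rfl
  have a3 : ∀ t j, atR D ρ v 3 t j = gev (D.h t) (ρ ^ 2 + v ^ 2) v := fun _ _ => rfl
  have a4 : ∀ t j, atR D ρ v 4 t j = gev (gdP (D.h t)) (ρ ^ 2 + v ^ 2) v := fun _ _ => rfl
  have a5 : ∀ t j, atR D ρ v 5 t j = gev (gdV (D.h t)) (ρ ^ 2 + v ^ 2) v := fun _ _ => rfl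
  simp only [totR, itE, List.map_cons, List.map_nil, List.sum_cons, List.sum_nil, a0, a1, a2, a3,
    a4, a5]
  simp only [
    ← (exX0 J v ρ).1, ← (exX0 J v ρ).2.1, ← (exX0 J v ρ).2.2.1, ← (exX0 J v ρ).2.2.2.1, ← (exX0 J v ρ).2.2.2.2,
    ← (exX1 J v ρ).1, ← (exX1 J v ρ).2.1, ← (exX1 J v ρ).2.2.1, ← (exX1 J v ρ).2.2.2.1, ← (exX1 J v ρ).2.2.2.2,
    ← (exX2 J v ρ).1, ← (exX2 J v ρ).2.1, ← (exX2 J v ρ).2.2.1, ← (exX2 J v ρ).2.2.2.1, ← (exX2 J v ρ).2.2.2.2,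
    ← (exX3 J v ρ).1, ← (exX3 J v ρ).2.1, ← (exX3 J v ρ).2.2.1, ← (exX3 J v ρ).2.2.2.1, ← (exX3 J v ρ).2.2.2.2,
    ← (exX4 J v ρ).1, ← (exX4 J v ρ).2.1, ← (exX4 J v ρ).2.2.1, ← (exX4 J v ρ).2.2.2.1, ← (exX4 J v ρ).2.2.2.2,
    ← (exX5 J v ρ).1, ← (exX5 J v ρ).2.1, ← (exX5 J v ρ).2.2.1, ← (exX5 J v ρ).2.2.2.1, ← (exX5 J v ρ).2.2.2.2,
    ← (exX6 J v ρ).1, ← (exX6 J v ρ).2.1, ← (exX6 J v ρ).2.2.1, ← (exX6 J v ρ).2.2.2.1, ← (exX6 J v ρ).2.2.2.2,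
    ← (exX7 J v ρ).1, ← (exX7 J v ρ).2.1, ← (exX7 J v ρ).2.2.1, ← (exX7 J v ρ).2.2.2.1, ← (exX7 J v ρ).2.2.2.2,
    ← (exX8 J v ρ).1, ← (exX8 J v ρ).2.1, ← (exX8 J v ρ).2.2.1, ← (exX8 J v ρ).2.2.2.1, ← (exX8 J v ρ).2.2.2.2,
    ← (exX9 J v ρ).1, ← (exX9 J v ρ).2.1, ← (exX9 J v ρ).2.2.1, ← (exX9 J v ρ).2.2.2.1, ← (exX9 J v ρ).2.2.2.2,
    ← (exX10 J v ρ).1, ← (exX10 J v ρ).2.1, ← (exX10 J v ρ).2.2.1, ← (exX10 J v ρ).2.2.2.1, ← (exX10 J v ρ).2.2.2.2,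
    ← (exX11 J v ρ).1, ← (exX11 J v ρ).2.1, ← (exX11 J v ρ).2.2.1, ← (exX11 J v ρ).2.2.2.1, ← (exX11 J v ρ).2.2.2.2,
    ← (exX12 J v ρ).1, ← (exX12 J v ρ).2.1, ← (exX12 J v ρ).2.2.1, ← (exX12 J v ρ).2.2.2.1, ← (exX12 J v ρ).2.2.2.2,
    ← (exX13 J v ρ).1, ← (exX13 J v ρ).2.1, ← (exX13 J v ρ).2.2.1, ← (exX13 J v ρ).2.2.2.1, ← (exX13 J v ρ).2.2.2.2,
    ← (exX14 J v ρ).1, ← (exX14 J v ρ).2.1, ← (exX14 J v ρ).2.2.1, ← (exX14 J v ρ).2.2.2.1, ← (exX14 J v ρ).2.2.2.2,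
    ← (exX15 J v ρ).1, ← (exX15 J v ρ).2.1, ← (exX15 J v ρ).2.2.1, ← (exX15 J v ρ).2.2.2.1, ← (exX15 J v ρ).2.2.2.2,
    ← (exX16 J v ρ).1, ← (exX16 J v ρ).2.1, ← (exX16 J v ρ).2.2.1, ← (exX16 J v ρ).2.2.2.1, ← (exX16 J v ρ).2.2.2.2,
    ← (exX17 J v ρ).1, ← (exX17 J v ρ).2.1, ← (exX17 J v ρ).2.2.1, ← (exX17 J v ρ).2.2.2.1, ← (exX17 J v ρ).2.2.2.2,
    ← (exX18 J v ρ).1, ← (exX18 J v ρ).2.1, ← (exX18 J v ρ).2.2.1, ← (exX18 J v ρ).2.2.2.1, ← (exX18 J v ρ).2.2.2.2,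
    ← (exX19 J v ρ).1, ← (exX19 J v ρ).2.1, ← (exX19 J v ρ).2.2.1, ← (exX19 J v ρ).2.2.2.1, ← (exX19 J v ρ).2.2.2.2,
    ← (exP0 J v ρ).1, ← (exP0 J v ρ).2.1, ← (exP0 J v ρ).2.2.1, ← (exP0 J v ρ).2.2.2.1, ← (exP0 J v ρ).2.2.2.2,
    ← (exP1 J v ρ).1, ← (exP1 J v ρ).2.1, ← (exP1 J v ρ).2.2.1, ← (exP1 J v ρ).2.2.2.1, ← (exP1 J v ρ).2.2.2.2,
    ← (exP2 J v ρ).1, ← (exP2 J v ρ).2.1, ← (exP2 J v ρ).2.2.1, ← (exP2 J v ρ).2.2.2.1, ← (exP2 J v ρ).2.2.2.2]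
  simp only [EE, DVT, XT, GWT, PT, Finset.sum_range_succ, Finset.sum_range_zero, hp]
  generalize ρ ^ 2 + v ^ 2 = P
  push_cast
  ring

end Vale.Agent.P098
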