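import Vale.Agent.P098.S1.F.Snd
import Vale.Agent.P098.S1.F.Tot
import Vale.Agent.P098.S1.F.Fnl
import Vale.Agent.P098.S1.F.Bdc

/-! P098 S1/F/Sos: a checked certificate gives the array inequality -/

noncomputable section

namespace Vale.Agent.P098

theorem arr_of_chk {D : Dat} (h : ∀ e < 68, okE D (items D) e = true)
    (hm : 4 * D.eps < 576 * D.m0) : ∃ η C, ArrOK D.n D.g D.h η C := by
  have hm' : (4 * D.eps : ℝ) < 576 * D.m0 := by exact_mod_cast hm
  refine arrOK_of (μ := (576 * D.m0 - 4 * D.eps) / 11520) (by linarith) fun J ρ v hv hρ h1 => ?_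
  have a := snd (ρ := ρ) (v := v) J h (abs_le_one_iff_mul_self_le_one.2 (by nlinarith))
    (abs_le_one_iff_mul_self_le_one.2 (by nlinarith))
  rw [items, totR_append, totR_append, tot_itE, tot_itM] at a
  have b := tot_itG D J hv h1
  have c := mul_le_mul_of_nonneg_left (sum_KK J) (Nat.cast_nonneg (α := ℝ) D.eps)
  have e := mul_nonneg (Nat.cast_nonneg (α := ℝ) D.m1) (add_nonneg (add_nonneg
    (piJ_nonneg J 0 6) (piJ_nonneg J 1 6)) (piJ_nonneg J 2 6))
  have a' := (abs_le.1 a).1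
  push_cast at a'
  linarith

theorem cert_of_chk {D : Dat} (h2 : 2 ≤ D.n) (h6 : D.n ≤ 6)
    (h : ∀ e < 68, okE D (items D) e = true) (hm : 4 * D.eps < 576 * D.m0)
    (hb : bdChk D.g D.h = true) : Nonempty (Cert D.n) := by
  obtain ⟨η, C, ok⟩ := arr_of_chk h hm
  exact cert_of h2 h6 (bdOK_of hb) ok

end Vale.Agent.P098
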