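import Vale.Agent.P098.S1.Iface
import Vale.Agent.P098.S1.Euler
import Vale.Agent.P098.S1.F.Sos
import Vale.Agent.P098.S1.F.Dat3
import Vale.Agent.P098.S1.F.Dat4
import Vale.Agent.P098.S1.F.Dat5
import Vale.Agent.P098.S1.F.Dat6

/-! P098 S1/F/Main: the certificates (helper4) -/

noncomputable section

namespace Vale.Agent.P098

variable {d : ℕ}

theorem okAll_all {D : Dat} (h : okAll D (items D) 0 68 = true) (e : ℕ) (he : e < 68) :
    okE D (items D) e = true := by
  simpa only [zero_add] using okAll_spec 68 h e he

theorem cert_exists (h3 : 3 ≤ d) (h6 : d ≤ 6) : Nonempty (Cert d) := by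
  interval_cases d
  · exact cert_of_chk (D := dat3) (by decide) (by decide) (okAll_all ok3) (by decide +kernel)
      (by decide +kernel)
  · exact cert_of_chk (D := dat4) (by decide) (by decide) (okAll_all ok4) (by decide +kernel)
      (by decide +kernel)
  · exact cert_of_chk (D := dat5) (by decide) (by decide) (okAll_all ok5) (by decide +kernel)
      (by decide +kernel)
  · exact cert_of_chk (D := dat6) (by decide) (by decide) (okAll_all ok6) (by decide +kernel)
      (by decide +kernel)

end Vale.Agent.P098
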