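import Mathlib

/-! P098 S1/F/Arr: array level definitions of the currents (FROZEN, owner helper4) -/

noncomputable section

namespace Vale.Agent.P098

abbrev A1 : Type := Fin 6 → ℝ
abbrev A2 : Type := Fin 6 → Fin 6 → ℝ
abbrev A3 : Type := Fin 6 → Fin 6 → Fin 6 → ℝ

def mvA (S : A2) (z : A1) : A1 := fun i => ∑ j, S i j * z j
def dtA (x y : A1) : ℝ := ∑ i, x i * y i
def frA (S B : A2) : ℝ := ∑ i, ∑ j, S i j * B i j
def tcA (T : A3) (B : A2) : A1 := fun l => frA (T l) B
def tvA (T : A3) (x y : A1) : A1 := fun l => dtA x (mvA (T l) y)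
def mmA (S B : A2) : A2 := fun i j => ∑ l, S i l * B l j

section
variable (p : A1) (S : A2) (T : A3) (p' : A1) (S' : A2)

def q1A : A1 := mvA S p
def q2A : A1 := mvA S (q1A p S)
def q3A : A1 := mvA S (q2A p S)
def aA : ℝ := dtA p (q1A p S)
def bA : ℝ := dtA (q1A p S) (q1A p S)
def cA : ℝ := dtA (q1A p S) (q2A p S)
def iA : ℝ := frA S S
def jA : ℝ := frA (mmA S S) S

def q1D : A1 := fun i => mvA S' p i + mvA S p' i
def q2D : A1 := fun i => mvA S' (q1A p S) i + mvA S (q1D p S p' S') i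
def q3D : A1 := fun i => mvA S' (q2A p S) i + mvA S (q2D p S p' S') i
def aD : ℝ := dtA p' (q1A p S) + dtA p (q1D p S p' S')
def bD : ℝ := 2 * dtA (q1A p S) (q1D p S p' S')
def cD : ℝ := dtA (q1D p S p' S') (q2A p S) + dtA (q1A p S) (q2D p S p' S')
def iD : ℝ := 2 * frA S S'
def jD : ℝ := frA (mmA S' S) S + frA (mmA S S') S + frA (mmA S S) S'
def ppD : A1 := fun l => tvA T p' p l + tvA T p p' l

/-- the five currents that are linear in `T` -/
def XL (t : ℕ) (k : Fin 6) : ℝ :=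
  match t with
  | 0 => tcA T S k
  | 1 => tvA T p (q1A p S) k
  | 2 => aA p S * tvA T p p k
  | 3 => mvA S (tvA T p p) k - p k * dtA (tcA T S) p
  | 4 => q1A p S k * dtA (tvA T p p) p - p k * dtA (tvA T p p) (q1A p S)
  | _ => 0

/-- the fifteen currents without `T` -/
def XN (t : ℕ) (k : Fin 6) : ℝ :=
  match t with
  | 5 => q3A p S k
  | 6 => aA p S * q2A p S k
  | 7 => iA S * q1A p S k
  | 8 => bA p S * q1A p S k
  | 9 => aA p S * aA p S * q1A p S k
  | 10 => jA S * p k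
  | 11 => cA p S * p k
  | 12 => aA p S * iA S * p k
  | 13 => aA p S * bA p S * p k
  | 14 => aA p S * aA p S * aA p S * p k
  | 15 => q2A p S k
  | 16 => aA p S * q1A p S k
  | 17 => iA S * p k
  | 18 => bA p S * p k
  | 19 => aA p S * aA p S * p k
  | _ => 0

def XA (t : ℕ) (k : Fin 6) : ℝ := XL p S T t k + XN p S t k

/-- derivative of `XL` in the direction `(p', S', 0)` -/
def XLD (t : ℕ) (k : Fin 6) : ℝ :=
  match t with
  | 0 => tcA T S' k
  | 1 => tvA T p' (q1A p S) k + tvA T p (q1D p S p' S') k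
  | 2 => aD p S p' S' * tvA T p p k + aA p S * ppD p T p' k
  | 3 => mvA S' (tvA T p p) k + mvA S (ppD p T p') k - p' k * dtA (tcA T S) p
      - p k * (dtA (tcA T S') p + dtA (tcA T S) p')
  | 4 => q1D p S p' S' k * dtA (tvA T p p) p
      + q1A p S k * (dtA (ppD p T p') p + dtA (tvA T p p) p')
      - p' k * dtA (tvA T p p) (q1A p S)
      - p k * (dtA (ppD p T p') (q1A p S) + dtA (tvA T p p) (q1D p S p' S'))
  | _ => 0

/-- derivative of `XN` in the direction `(p', S')` -/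
def XND (t : ℕ) (k : Fin 6) : ℝ :=
  match t with
  | 5 => q3D p S p' S' k
  | 6 => aD p S p' S' * q2A p S k + aA p S * q2D p S p' S' k
  | 7 => iD S S' * q1A p S k + iA S * q1D p S p' S' k
  | 8 => bD p S p' S' * q1A p S k + bA p S * q1D p S p' S' k
  | 9 => 2 * aA p S * aD p S p' S' * q1A p S k + aA p S * aA p S * q1D p S p' S' k
  | 10 => jD S S' * p k + jA S * p' k
  | 11 => cD p S p' S' * p k + cA p S * p' k
  | 12 => (aD p S p' S' * iA S + aA p S * iD S S') * p k + aA p S * iA S * p' k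
  | 13 => (aD p S p' S' * bA p S + aA p S * bD p S p' S') * p k + aA p S * bA p S * p' k
  | 14 => 3 * aA p S * aA p S * aD p S p' S' * p k + aA p S * aA p S * aA p S * p' k
  | 15 => q2D p S p' S' k
  | 16 => aD p S p' S' * q1A p S k + aA p S * q1D p S p' S' k
  | 17 => iD S S' * p k + iA S * p' k
  | 18 => bD p S p' S' * p k + bA p S * p' k
  | 19 => 2 * aA p S * aD p S p' S' * p k + aA p S * aA p S * p' k
  | _ => 0

def PA (s : ℕ) : ℝ :=
  match s with
  | 0 => iA S
  | 1 => bA p S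
  | 2 => aA p S * aA p S
  | _ => 0

def PD (s : ℕ) : ℝ :=
  match s with
  | 0 => iD S S'
  | 1 => bD p S p' S'
  | 2 => 2 * aA p S * aD p S p' S'
  | _ => 0

end

/-- the derivative of the scaled Hessian in direction `k` -/
def shA (x : A1) (S : A2) (T : A3) (k : Fin 6) : A2 := fun i j => T k i j + x k * S i j

/-- divergence of the current number `t` (fourth derivatives cancel) -/
def DVA (x p : A1) (S : A2) (T : A3) (t : ℕ) : ℝ :=
  ∑ k, (XLD p S T (S k) (shA x S T k) t k + 2 * x k * XL p S T t k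
    + XND p S (S k) (shA x S T k) t k)

/-- derivative of the scalar number `s` in the direction `w` -/
def GWA (x p : A1) (S : A2) (T : A3) (w : A1) (s : ℕ) : ℝ :=
  ∑ k, w k * PD p S (S k) (shA x S T k) s

/-- polynomials in two variables with integer coefficients -/
abbrev PL : Type := List (ℕ × ℕ × ℤ)

def gev (l : PL) (P v : ℝ) : ℝ := (l.map fun e => (e.2.2 : ℝ) * P ^ e.1 * v ^ e.2.1).sum
def gdP (l : PL) : PL := l.map fun e => (e.1 - 1, e.2.1, e.1 * e.2.2)
def gdV (l : PL) : PL := l.map fun e => (e.1, e.2.1 - 1, e.2.1 * e.2.2)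

/-- the divergence of the total current -/
def DVT (g : ℕ → PL) (x p : A1) (v : ℝ) (S : A2) (T : A3) : ℝ :=
  ∑ t ∈ Finset.range 20, (gev (g t) (dtA p p) v * DVA x p S T t
    + 2 * gev (gdP (g t)) (dtA p p) v * dtA (q1A p S) (XA p S T t)
    + gev (gdV (g t)) (dtA p p) v * (dtA p (XA p S T t) - v * dtA x (XA p S T t)))

/-- the pairing of the total current with `z` -/
def XT (g : ℕ → PL) (p : A1) (v : ℝ) (S : A2) (T : A3) (z : A1) : ℝ :=
  ∑ t ∈ Finset.range 20, gev (g t) (dtA p p) v * dtA z (XA p S T t)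

/-- the total scalar -/
def PT (h : ℕ → PL) (p : A1) (v : ℝ) (S : A2) : ℝ :=
  ∑ s ∈ Finset.range 3, gev (h s) (dtA p p) v * PA p S s

/-- derivative of the total scalar in the direction `w` -/
def GWT (h : ℕ → PL) (x p : A1) (v : ℝ) (S : A2) (T : A3) (w : A1) : ℝ :=
  ∑ s ∈ Finset.range 3, (gev (h s) (dtA p p) v * GWA x p S T w s
    + (2 * gev (gdP (h s)) (dtA p p) v * dtA (q1A p S) w
      + gev (gdV (h s)) (dtA p p) v * (dtA p w - v * dtA x w)) * PA p S s)

/-- arrays in an adapted frame -/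
structure Adp (x p : A1) (v ρ : ℝ) (S : A2) (T : A3) : Prop where
  hx : x = ![1, 0, 0, 0, 0, 0]
  hp : p = ![v, ρ, 0, 0, 0, 0]
  s_symm : ∀ i j, S i j = S j i
  s_zero : ∀ j, S 0 j = 0
  s_diag : ∀ i j : Fin 6, 2 ≤ i → 2 ≤ j → i ≠ j → S i j = 0
  s_tr : ∑ i, S i i = 0
  t_symm1 : ∀ i j k, T i j k = T j i k
  t_symm2 : ∀ i j k, T i j k = T i k j
  t_zero : ∀ i j, T 0 i j = -S i j
  t_tr : ∀ k, ∑ i, T k i i = 0

end Vale.Agent.P098
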