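import Vale.Agent.P098.S1.Iface
import Vale.Agent.P098.S1.F.Arr

/-! P098 S1/F/Defs: intrinsic definitions of the currents (FROZEN, owner helper4) -/

open MeasureTheory Filter Topology Set Metric
open scoped ContDiff RealInnerProductSpace NNReal

set_option maxSynthPendingDepth 3

noncomputable section

namespace Vale.Agent.P098

variable {d : ℕ}

/-- the vector with the given coordinates -/
def vecOf (f : Fin d → ℝ) : E d := ∑ i, f i • bv i

def mvI (S : B2 d) (z : E d) : E d := vecOf fun i => S (bv i) z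
def frI (S B : B2 d) : ℝ := ∑ i, ∑ j, S (bv i) (bv j) * B (bv i) (bv j)
def tcI (T : B3 d) (B : B2 d) : E d := vecOf fun l => frI (T (bv l)) B
def tvI (T : B3 d) (x y : E d) : E d := vecOf fun l => T (bv l) x y
def jI (S : B2 d) : ℝ := ∑ i, ∑ j, (∑ l, S (bv i) (bv l) * S (bv l) (bv j)) * S (bv i) (bv j)
def aI (p : E d) (S : B2 d) : ℝ := ⟪p, mvI S p⟫
def bI (p : E d) (S : B2 d) : ℝ := ⟪mvI S p, mvI S p⟫
def cI (p : E d) (S : B2 d) : ℝ := ⟪mvI S p, mvI S (mvI S p)⟫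

def XI (p : E d) (S : B2 d) (T : B3 d) (t : ℕ) : E d :=
  match t with
  | 0 => tcI T S
  | 1 => tvI T p (mvI S p)
  | 2 => aI p S • tvI T p p
  | 3 => mvI S (tvI T p p) - ⟪tcI T S, p⟫ • p
  | 4 => ⟪tvI T p p, p⟫ • mvI S p - ⟪tvI T p p, mvI S p⟫ • p
  | 5 => mvI S (mvI S (mvI S p))
  | 6 => aI p S • mvI S (mvI S p)
  | 7 => frI S S • mvI S p
  | 8 => bI p S • mvI S p
  | 9 => (aI p S * aI p S) • mvI S p
  | 10 => jI S • p
  | 11 => cI p S • p
  | 12 => (aI p S * frI S S) • p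
  | 13 => (aI p S * bI p S) • p
  | 14 => (aI p S * aI p S * aI p S) • p
  | 15 => mvI S (mvI S p)
  | 16 => aI p S • mvI S p
  | 17 => frI S S • p
  | 18 => bI p S • p
  | 19 => (aI p S * aI p S) • p
  | _ => 0

def PI (p : E d) (S : B2 d) (s : ℕ) : ℝ :=
  match s with
  | 0 => frI S S
  | 1 => bI p S
  | 2 => aI p S * aI p S
  | _ => 0

def XOf (g : ℕ → PL) (q : E d × ℝ × B2 d × B3 d) : E d :=
  ∑ t ∈ Finset.range 20, gev (g t) ⟪q.1, q.1⟫ q.2.1 • XI q.1 q.2.2.1 q.2.2.2 t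

def PhOf (h : ℕ → PL) (q : E d × ℝ × B2 d) : ℝ :=
  ∑ s ∈ Finset.range 3, gev (h s) ⟪q.1, q.1⟫ q.2.1 * PI q.1 q.2.2 s

/-- Parseval frames with six vectors -/
def Pars (b : Fin 6 → E d) : Prop := ∀ z : E d, ∑ k, ⟪b k, z⟫ • b k = z

def ar1 (b : Fin 6 → E d) (z : E d) : A1 := fun i => ⟪b i, z⟫
def ar2 (b : Fin 6 → E d) (S : B2 d) : A2 := fun i j => S (b i) (b j)
def ar3 (b : Fin 6 → E d) (T : B3 d) : A3 := fun i j k => T (b i) (b j) (b k)

end Vale.Agent.P098
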