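import Vale.Agent.P098.S1.F.Arr

/-! P098 S1/F/DerA: derivatives of the array currents along curves.
Plan: HasDerivAt lemmas for mvA, dtA, frA, mmA, tcA, tvA (HasDerivAt.fun_sum, HasDerivAt.mul), then for
q1A q2A q3A aA bA cA iA jA, then a case split on t (match t with the 20 cases and the default case),
`congr_deriv` and `ring` / mul_comm in sums (dtA x y = dtA y x, frA S B = frA B S).
XL_cancel: Finset.sum_comm and the symmetry of U. -/

noncomputable section

namespace Vale.Agent.P098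

variable {p : ℝ → A1} {S : ℝ → A2} {T : ℝ → A3} {p' : A1} {S' : A2} {T' : A3}

theorem dera_dt_comm (x y : A1) : dtA x y = dtA y x := Finset.sum_congr rfl fun _ _ => mul_comm _ _

theorem dera_fr_comm (S B : A2) : frA S B = frA B S :=
  Finset.sum_congr rfl fun _ _ => Finset.sum_congr rfl fun _ _ => mul_comm _ _

theorem dera_dt_add (x y z : A1) : dtA (fun i => x i + y i) z = dtA x z + dtA y z := by
  simp only [dtA, add_mul, Finset.sum_add_distrib]

theorem dera_dt_add' (x y z : A1) : dtA z (fun i => x i + y i) = dtA z x + dtA z y := by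
  simp only [dtA, mul_add, Finset.sum_add_distrib]

theorem dera_mv_add (S : A2) (x y : A1) (k : Fin 6) :
    mvA S (fun i => x i + y i) k = mvA S x k + mvA S y k := by
  simp only [mvA, mul_add, Finset.sum_add_distrib]

theorem dera_fr_add (S B C : A2) : frA (fun i j => S i j + B i j) C = frA S C + frA B C := by
  simp only [frA, add_mul, Finset.sum_add_distrib]

theorem dera_dt {x y : ℝ → A1} {x' y' : A1} (hx : ∀ i, HasDerivAt (fun s => x s i) (x' i) 0)
    (hy : ∀ i, HasDerivAt (fun s => y s i) (y' i) 0) :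
    HasDerivAt (fun s => dtA (x s) (y s)) (dtA x' (y 0) + dtA (x 0) y') 0 := by
  unfold dtA
  rw [← Finset.sum_add_distrib]
  exact HasDerivAt.fun_sum fun i _ => (hx i).fun_mul (hy i)

theorem dera_mv (hS : ∀ i j, HasDerivAt (fun s => S s i j) (S' i j) 0) {y : ℝ → A1} {y' : A1}
    (hy : ∀ i, HasDerivAt (fun s => y s i) (y' i) 0) (i : Fin 6) :
    HasDerivAt (fun s => mvA (S s) (y s) i) (mvA S' (y 0) i + mvA (S 0) y' i) 0 :=
  dera_dt (x := fun s => S s i) (hS i) hy

theorem dera_fr (hS : ∀ i j, HasDerivAt (fun s => S s i j) (S' i j) 0) {B : ℝ → A2} {B' : A2}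
    (hB : ∀ i j, HasDerivAt (fun s => B s i j) (B' i j) 0) :
    HasDerivAt (fun s => frA (S s) (B s)) (frA S' (B 0) + frA (S 0) B') 0 := by
  unfold frA
  rw [← Finset.sum_add_distrib]
  exact HasDerivAt.fun_sum fun i _ => dera_dt (x := fun s => S s i) (y := fun s => B s i)
    (hS i) (hB i)

theorem dera_mm (hS : ∀ i j, HasDerivAt (fun s => S s i j) (S' i j) 0) (i j : Fin 6) :
    HasDerivAt (fun s => mmA (S s) (S s) i j) (mmA S' (S 0) i j + mmA (S 0) S' i j) 0 :=
  dera_dt (x := fun s => S s i) (y := fun s l => S s l j) (hS i) fun l => hS l j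

theorem dera_tv (hT : ∀ i j k, HasDerivAt (fun s => T s i j k) (T' i j k) 0) {x y : ℝ → A1}
    {x' y' : A1} (hx : ∀ i, HasDerivAt (fun s => x s i) (x' i) 0)
    (hy : ∀ i, HasDerivAt (fun s => y s i) (y' i) 0) (l : Fin 6) :
    HasDerivAt (fun s => tvA (T s) (x s) (y s) l)
      (tvA T' (x 0) (y 0) l + (tvA (T 0) x' (y 0) l + tvA (T 0) (x 0) y' l)) 0 := by
  refine (dera_dt hx (dera_mv (S := fun s => T s l) (hT l) hy)).congr_deriv ?_
  rw [dera_dt_add']
  unfold tvA
  ring

theorem dera_b (hp : ∀ i, HasDerivAt (fun s => p s i) (p' i) 0)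
    (hS : ∀ i j, HasDerivAt (fun s => S s i j) (S' i j) 0) :
    HasDerivAt (fun s => bA (p s) (S s)) (bD (p 0) (S 0) p' S') 0 := by
  have q1 : ∀ i, HasDerivAt (fun s => q1A (p s) (S s) i) (q1D (p 0) (S 0) p' S' i) 0 :=
    dera_mv hS hp
  refine (dera_dt q1 q1).congr_deriv ?_
  rw [dera_dt_comm, bD, two_mul]

theorem dera_i (hS : ∀ i j, HasDerivAt (fun s => S s i j) (S' i j) 0) :
    HasDerivAt (fun s => iA (S s)) (iD (S 0) S') 0 := by
  refine (dera_fr hS hS).congr_deriv ?_
  rw [dera_fr_comm, iD, two_mul]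

theorem dera_a (hp : ∀ i, HasDerivAt (fun s => p s i) (p' i) 0)
    (hS : ∀ i j, HasDerivAt (fun s => S s i j) (S' i j) 0) :
    HasDerivAt (fun s => aA (p s) (S s)) (aD (p 0) (S 0) p' S') 0 :=
  dera_dt hp (dera_mv hS hp)

theorem dera_XL (hp : ∀ i, HasDerivAt (fun s => p s i) (p' i) 0)
    (hS : ∀ i j, HasDerivAt (fun s => S s i j) (S' i j) 0)
    (hT : ∀ i j k, HasDerivAt (fun s => T s i j k) (T' i j k) 0) (t : ℕ) (k : Fin 6) :
    HasDerivAt (fun s => XL (p s) (S s) (T s) t k)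
      (XLD (p 0) (S 0) (T 0) p' S' t k + XL (p 0) (S 0) T' t k) 0 := by
  have q1 : ∀ i, HasDerivAt (fun s => q1A (p s) (S s) i) (q1D (p 0) (S 0) p' S' i) 0 :=
    dera_mv hS hp
  have pp : ∀ i, HasDerivAt (fun s => tvA (T s) (p s) (p s) i)
      (tvA T' (p 0) (p 0) i + ppD (p 0) (T 0) p' i) 0 := dera_tv hT hp hp
  have tc : ∀ i, HasDerivAt (fun s => tcA (T s) (S s) i) (tcA T' (S 0) i + tcA (T 0) S' i) 0 :=
    fun i => dera_fr (S := fun s => T s i) (hT i) hS
  match t with
  | 0 => exact (tc k).congr_deriv (by simp only [XLD, XL]; ring)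
  | 1 => exact (dera_tv hT hp q1 k).congr_deriv (by simp only [XLD, XL]; ring)
  | 2 => exact ((dera_a hp hS).fun_mul (pp k)).congr_deriv (by simp only [XLD, XL]; ring)
  | 3 =>
    exact ((dera_mv hS pp k).fun_sub ((hp k).fun_mul (dera_dt tc hp))).congr_deriv
      (by simp only [XLD, XL, dera_mv_add, dera_dt_add]; ring)
  | 4 =>
    exact (((q1 k).fun_mul (dera_dt pp hp)).fun_sub ((hp k).fun_mul (dera_dt pp q1))).congr_deriv
      (by simp only [XLD, XL, dera_dt_add]; ring)
  | n + 5 => exact (hasDerivAt_const (0 : ℝ) (0 : ℝ)).congr_deriv (add_zero (0 : ℝ)).symm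

theorem dera_XN (hp : ∀ i, HasDerivAt (fun s => p s i) (p' i) 0)
    (hS : ∀ i j, HasDerivAt (fun s => S s i j) (S' i j) 0) (t : ℕ) (k : Fin 6) :
    HasDerivAt (fun s => XN (p s) (S s) t k) (XND (p 0) (S 0) p' S' t k) 0 := by
  have q1 : ∀ i, HasDerivAt (fun s => q1A (p s) (S s) i) (q1D (p 0) (S 0) p' S' i) 0 :=
    dera_mv hS hp
  have q2 : ∀ i, HasDerivAt (fun s => q2A (p s) (S s) i) (q2D (p 0) (S 0) p' S' i) 0 :=
    dera_mv hS q1
  have q3 : ∀ i, HasDerivAt (fun s => q3A (p s) (S s) i) (q3D (p 0) (S 0) p' S' i) 0 :=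
    dera_mv hS q2
  have ha := dera_a hp hS
  have hb := dera_b hp hS
  have hi := dera_i hS
  have hc : HasDerivAt (fun s => cA (p s) (S s)) (cD (p 0) (S 0) p' S') 0 := dera_dt q1 q2
  have hj : HasDerivAt (fun s => jA (S s)) (jD (S 0) S') 0 :=
    (dera_fr (dera_mm hS) hS).congr_deriv (by rw [dera_fr_add, jD])
  have z : HasDerivAt (fun _ : ℝ => (0 : ℝ)) 0 0 := hasDerivAt_const _ _
  match t with
  | 0 => exact z
  | 1 => exact z
  | 2 => exact z
  | 3 => exact z
  | 4 => exact z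
  | 5 => exact q3 k
  | 6 => exact ha.fun_mul (q2 k)
  | 7 => exact hi.fun_mul (q1 k)
  | 8 => exact hb.fun_mul (q1 k)
  | 9 => exact ((ha.fun_mul ha).fun_mul (q1 k)).congr_deriv (by simp only [XND]; ring)
  | 10 => exact hj.fun_mul (hp k)
  | 11 => exact hc.fun_mul (hp k)
  | 12 => exact (ha.fun_mul hi).fun_mul (hp k)
  | 13 => exact (ha.fun_mul hb).fun_mul (hp k)
  | 14 => exact (((ha.fun_mul ha).fun_mul ha).fun_mul (hp k)).congr_deriv (by simp only [XND]; ring)
  | 15 => exact q2 k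
  | 16 => exact ha.fun_mul (q1 k)
  | 17 => exact hi.fun_mul (hp k)
  | 18 => exact hb.fun_mul (hp k)
  | 19 => exact ((ha.fun_mul ha).fun_mul (hp k)).congr_deriv (by simp only [XND]; ring)
  | n + 20 => exact z

theorem dera_sum4 (f : Fin 6 → Fin 6 → Fin 6 → Fin 6 → ℝ) :
    ∑ k, ∑ l, ∑ i, ∑ j, f k l i j = ∑ i, ∑ j, ∑ k, ∑ l, f k l i j := by
  calc ∑ k, ∑ l, ∑ i, ∑ j, f k l i j = ∑ k, ∑ i, ∑ j, ∑ l, f k l i j :=
        Finset.sum_congr rfl fun k _ => Finset.sum_comm.trans
          (Finset.sum_congr rfl fun i _ => Finset.sum_comm)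
    _ = _ := Finset.sum_comm.trans (Finset.sum_congr rfl fun i _ => Finset.sum_comm)

theorem dera_dt_sum (w : A1) (a : A2) (y : A1) :
    dtA (fun i => ∑ k, w k * a k i) y = ∑ k, w k * dtA (a k) y := by
  simp only [dtA, Finset.sum_mul, Finset.mul_sum, mul_assoc]
  exact Finset.sum_comm

theorem dera_dt_sum' (w : A1) (a : A2) (y : A1) :
    dtA y (fun i => ∑ k, w k * a k i) = ∑ k, w k * dtA y (a k) := by
  simp only [dera_dt_comm y, dera_dt_sum]

theorem dera_q1_sum (p : A1) (S : A2) (w : A1) (a : A2) (B : A3) :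
    q1D p S (fun i => ∑ k, w k * a k i) (fun i j => ∑ k, w k * B k i j) =
      fun i => ∑ k, w k * q1D p S (a k) (B k) i := by
  funext i
  have h1 := dera_dt_sum w (fun k => B k i) p
  have h2 := dera_dt_sum' w a (S i)
  simp only [q1D, mul_add, Finset.sum_add_distrib]
  exact congrArg₂ (· + ·) h1 h2

theorem hasDerivAt_XA (hp : ∀ i, HasDerivAt (fun s => p s i) (p' i) 0)
    (hS : ∀ i j, HasDerivAt (fun s => S s i j) (S' i j) 0)
    (hT : ∀ i j k, HasDerivAt (fun s => T s i j k) (T' i j k) 0) (t : ℕ) (k : Fin 6) :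
    HasDerivAt (fun s => XA (p s) (S s) (T s) t k)
      (XLD (p 0) (S 0) (T 0) p' S' t k + XL (p 0) (S 0) T' t k + XND (p 0) (S 0) p' S' t k) 0 :=
  (dera_XL hp hS hT t k).fun_add (dera_XN hp hS t k)

theorem hasDerivAt_PA (hp : ∀ i, HasDerivAt (fun s => p s i) (p' i) 0)
    (hS : ∀ i j, HasDerivAt (fun s => S s i j) (S' i j) 0) (t : ℕ) :
    HasDerivAt (fun s => PA (p s) (S s) t) (PD (p 0) (S 0) p' S' t) 0 := by
  match t with
  | 0 => exact dera_i hS
  | 1 => exact dera_b hp hS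
  | 2 => exact ((dera_a hp hS).fun_mul (dera_a hp hS)).congr_deriv (by simp only [PD]; ring)
  | n + 3 => exact hasDerivAt_const (0 : ℝ) (0 : ℝ)

theorem hasDerivAt_gev (l : PL) {P v : ℝ → ℝ} {P' v' : ℝ} (hP : HasDerivAt P P' 0)
    (hv : HasDerivAt v v' 0) : HasDerivAt (fun s => gev l (P s) (v s))
      (gev (gdP l) (P 0) (v 0) * P' + gev (gdV l) (P 0) (v 0) * v') 0 := by
  induction l with
  | nil => simpa [gev, gdP, gdV] using hasDerivAt_const (0 : ℝ) (0 : ℝ)
  | cons e l ih =>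
    have h := (((hP.fun_pow e.1).const_mul (e.2.2 : ℝ)).fun_mul (hv.fun_pow e.2.1)).fun_add ih
    simp only [gev, gdP, gdV, List.map_cons, List.sum_cons] at h ⊢
    refine h.congr_deriv ?_
    push_cast
    ring

/-- `XL` is linear in the tensor -/
theorem XL_add_smul (p : A1) (S : A2) (U T : A3) (c : ℝ) (t : ℕ) (k : Fin 6) :
    XL p S (fun i j l => U i j l + c * T i j l) t k = XL p S U t k + c * XL p S T t k := by
  have e1 : ∀ (x y : A1), tvA (fun i j l => U i j l + c * T i j l) x y =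
      fun l => tvA U x y l + c * tvA T x y l := fun x y => funext fun l => by
    simp only [tvA, dtA, mvA, add_mul, mul_add, Finset.sum_add_distrib, Finset.mul_sum]
    exact congrArg _ (Finset.sum_congr rfl fun _ _ => Finset.sum_congr rfl fun _ _ => by ring)
  have e2 : tcA (fun i j l => U i j l + c * T i j l) S = fun l => tcA U S l + c * tcA T S l :=
    funext fun l => by
      simp only [tcA, frA, add_mul, Finset.sum_add_distrib, Finset.mul_sum, mul_assoc]
  have e3 : ∀ x y z : A1, dtA (fun l => x l + c * y l) z = dtA x z + c * dtA y z := fun x y z => by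
    simp only [dtA, add_mul, Finset.sum_add_distrib, Finset.mul_sum, mul_assoc]
  have e4 : ∀ x y : A1, mvA S (fun l => x l + c * y l) k = mvA S x k + c * mvA S y k :=
    fun x y => by
      simp only [mvA, mul_add, Finset.sum_add_distrib, Finset.mul_sum, mul_left_comm c]
  match t with
  | 0 => simp only [XL, e2]
  | 1 => simp only [XL, e1]
  | 2 => simp only [XL, e1]; ring
  | 3 => simp only [XL, e1, e2, e3, e4]; ring
  | 4 => simp only [XL, e1, e3]; ring
  | n + 5 => exact (by simp : (0 : ℝ) = 0 + c * 0)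

/-- fourth derivatives cancel in the divergence -/
theorem XL_cancel (p : A1) (S : A2) (U : Fin 6 → A3) (h1 : ∀ i j k l, U i j k l = U j i k l)
    (h2 : ∀ i j k l, U i j k l = U i k j l) (h3 : ∀ i j k l, U i j k l = U i j l k)
    (h0 : ∀ i j, ∑ k, U i j k k = 0) (t : ℕ) : ∑ k, XL p S (U k) t k = 0 := by
  have hs : ∀ i j k l, U k l i j = U i j k l := fun i j k l => by
    rw [h2 k l i j, h1 k i l j, h3 i k l j, h2 i k j l]
  have hz : ∀ f : A2, ∑ k, ∑ i, ∑ j, f i j * U k k i j = 0 := fun f => by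
    rw [Finset.sum_comm]
    refine Finset.sum_eq_zero fun i _ => ?_
    rw [Finset.sum_comm]
    refine Finset.sum_eq_zero fun j _ => ?_
    simp only [← Finset.mul_sum, hs i j, h0, mul_zero]
  have hv : ∀ x y : A1, ∑ k, tvA (U k) x y k = 0 := fun x y => by
    rw [← hz fun i j => x i * y j]
    simp only [tvA, dtA, mvA, Finset.mul_sum]
    exact Finset.sum_congr rfl fun _ _ => Finset.sum_congr rfl fun _ _ =>
      Finset.sum_congr rfl fun _ _ => by ring
  match t with
  | 0 =>
    rw [← hz S]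
    simp only [XL, tcA, frA, mul_comm]
  | 1 => exact hv _ _
  | 2 => simp only [XL, ← Finset.mul_sum, hv, mul_zero]
  | 3 =>
    simp only [XL, Finset.sum_sub_distrib, sub_eq_zero, tvA, tcA, frA, dtA, mvA, Finset.mul_sum,
      Finset.sum_mul]
    rw [dera_sum4]
    exact Finset.sum_congr rfl fun i _ => Finset.sum_congr rfl fun j _ =>
      Finset.sum_congr rfl fun k _ => Finset.sum_congr rfl fun l _ => by rw [hs i j k l]; ring
  | 4 =>
    have e : ∀ k l, tvA (U k) p p l = tvA (U l) p p k := fun k l => by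
      simp only [tvA, dtA, mvA, h1 k l]
    simp only [XL, Finset.sum_sub_distrib, sub_eq_zero, dtA, Finset.mul_sum]
    rw [Finset.sum_comm]
    exact Finset.sum_congr rfl fun k _ => Finset.sum_congr rfl fun l _ => by rw [e k l]; ring
  | n + 5 => exact Finset.sum_const_zero

/-- the derivative `PD` is linear in the direction -/
theorem PD_sum (p : A1) (S : A2) (w : A1) (a : A2) (B : A3) (t : ℕ) :
    PD p S (fun i => ∑ k, w k * a k i) (fun i j => ∑ k, w k * B k i j) t
      = ∑ k, w k * PD p S (a k) (B k) t := by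
  match t with
  | 0 =>
    simp only [PD, iD, frA, Finset.mul_sum]
    rw [Finset.sum_comm (γ := Fin 6) (f := fun k i => ∑ j, w k * (2 * (S i j * B k i j)))]
    refine Finset.sum_congr rfl fun i _ => ?_
    rw [Finset.sum_comm]
    exact Finset.sum_congr rfl fun _ _ => Finset.sum_congr rfl fun _ _ => by ring
  | 1 =>
    simp only [PD, bD, dera_q1_sum, dera_dt_sum', Finset.mul_sum]
    exact Finset.sum_congr rfl fun _ _ => by ring
  | 2 =>
    simp only [PD, aD, dera_q1_sum, dera_dt_sum', dera_dt_sum, ← Finset.sum_add_distrib,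
      Finset.mul_sum]
    exact Finset.sum_congr rfl fun _ _ => by ring
  | n + 3 => exact (by simp : (0 : ℝ) = ∑ k, w k * 0)

end Vale.Agent.P098
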