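import Vale.Agent.P098.S1.F.Defs

/-! P098 S1/F/Smooth: smoothness of the polynomial maps.
Plan: ContDiff lemmas for vecOf, mvI, frI, tcI, tvI, jI, aI, bI, cI composed with smooth maps (ContDiff.clm_apply,
ContDiff.sum, ContDiff.inner), gev by induction on the list, case split on t. -/

open MeasureTheory Filter Topology Set Metric
open scoped ContDiff RealInnerProductSpace NNReal

set_option maxSynthPendingDepth 3

noncomputable section

namespace Vale.Agent.P098

variable {d : ℕ}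

section
variable {Y : Type} [NormedAddCommGroup Y] [NormedSpace ℝ Y]
  {p x y : Y → E d} {S B : Y → B2 d} {T : Y → B3 d}

theorem cd_vecOf_Smooth {f : Y → Fin d → ℝ} (hf : ∀ i, ContDiff ℝ ∞ fun q => f q i) :
    ContDiff ℝ ∞ fun q => vecOf (f q) :=
  ContDiff.sum fun i _ => (hf i).smul contDiff_const

theorem cd_app_Smooth (hS : ContDiff ℝ ∞ S) (hx : ContDiff ℝ ∞ x) (hy : ContDiff ℝ ∞ y) :
    ContDiff ℝ ∞ fun q => S q (x q) (y q) :=
  (hS.clm_apply hx).clm_apply hy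

theorem cd_mvI_Smooth (hS : ContDiff ℝ ∞ S) (hx : ContDiff ℝ ∞ x) :
    ContDiff ℝ ∞ fun q => mvI (S q) (x q) :=
  cd_vecOf_Smooth fun _ => cd_app_Smooth hS contDiff_const hx

theorem cd_frI_Smooth (hS : ContDiff ℝ ∞ S) (hB : ContDiff ℝ ∞ B) :
    ContDiff ℝ ∞ fun q => frI (S q) (B q) :=
  ContDiff.sum fun _ _ => ContDiff.sum fun _ _ =>
    (cd_app_Smooth hS contDiff_const contDiff_const).mul
      (cd_app_Smooth hB contDiff_const contDiff_const)

theorem cd_tcI_Smooth (hT : ContDiff ℝ ∞ T) (hB : ContDiff ℝ ∞ B) :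
    ContDiff ℝ ∞ fun q => tcI (T q) (B q) :=
  cd_vecOf_Smooth fun _ => cd_frI_Smooth (hT.clm_apply contDiff_const) hB

theorem cd_tvI_Smooth (hT : ContDiff ℝ ∞ T) (hx : ContDiff ℝ ∞ x) (hy : ContDiff ℝ ∞ y) :
    ContDiff ℝ ∞ fun q => tvI (T q) (x q) (y q) :=
  cd_vecOf_Smooth fun _ => cd_app_Smooth (hT.clm_apply contDiff_const) hx hy

theorem cd_jI_Smooth (hS : ContDiff ℝ ∞ S) : ContDiff ℝ ∞ fun q => jI (S q) :=
  ContDiff.sum fun _ _ => ContDiff.sum fun _ _ =>
    (ContDiff.sum fun _ _ => (cd_app_Smooth hS contDiff_const contDiff_const).mul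
      (cd_app_Smooth hS contDiff_const contDiff_const)).mul
      (cd_app_Smooth hS contDiff_const contDiff_const)

theorem cd_gev_Smooth (l : PL) {P v : Y → ℝ} (hP : ContDiff ℝ ∞ P) (hv : ContDiff ℝ ∞ v) :
    ContDiff ℝ ∞ fun q => gev l (P q) (v q) := by
  induction l with
  | nil => simpa [gev] using contDiff_const
  | cons e l ih =>
    have : (fun q => gev (e :: l) (P q) (v q)) =
        fun q => (e.2.2 : ℝ) * P q ^ e.1 * v q ^ e.2.1 + gev l (P q) (v q) := by
      funext q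
      simp [gev]
    rw [this]
    exact ((contDiff_const.mul (hP.pow _)).mul (hv.pow _)).add ih

theorem cd_XI_Smooth (hp : ContDiff ℝ ∞ p) (hS : ContDiff ℝ ∞ S) (hT : ContDiff ℝ ∞ T) (t : ℕ) :
    ContDiff ℝ ∞ fun q => XI (p q) (S q) (T q) t := by
  have h1 := cd_mvI_Smooth hS hp
  have h2 := cd_mvI_Smooth hS h1
  have h3 := cd_mvI_Smooth hS h2
  have ha : ContDiff ℝ ∞ fun q => aI (p q) (S q) := hp.inner ℝ h1
  have hb : ContDiff ℝ ∞ fun q => bI (p q) (S q) := h1.inner ℝ h1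
  have hc : ContDiff ℝ ∞ fun q => cI (p q) (S q) := h1.inner ℝ h2
  have hi := cd_frI_Smooth hS hS
  have hj := cd_jI_Smooth hS
  have hpp := cd_tvI_Smooth hT hp hp
  have htc := cd_tcI_Smooth hT hS
  match t with
  | 0 => exact htc
  | 1 => exact cd_tvI_Smooth hT hp h1
  | 2 => exact ha.smul hpp
  | 3 => exact (cd_mvI_Smooth hS hpp).sub ((htc.inner ℝ hp).smul hp)
  | 4 => exact ((hpp.inner ℝ hp).smul h1).sub ((hpp.inner ℝ h1).smul hp)
  | 5 => exact h3
  | 6 => exact ha.smul h2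
  | 7 => exact hi.smul h1
  | 8 => exact hb.smul h1
  | 9 => exact (ha.mul ha).smul h1
  | 10 => exact hj.smul hp
  | 11 => exact hc.smul hp
  | 12 => exact (ha.mul hi).smul hp
  | 13 => exact (ha.mul hb).smul hp
  | 14 => exact ((ha.mul ha).mul ha).smul hp
  | 15 => exact h2
  | 16 => exact ha.smul h1
  | 17 => exact hi.smul hp
  | 18 => exact hb.smul hp
  | 19 => exact (ha.mul ha).smul hp
  | _ + 20 => exact contDiff_const (c := (0 : E d))

theorem cd_PI_Smooth (hp : ContDiff ℝ ∞ p) (hS : ContDiff ℝ ∞ S) (s : ℕ) :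
    ContDiff ℝ ∞ fun q => PI (p q) (S q) s := by
  have h1 := cd_mvI_Smooth hS hp
  have ha : ContDiff ℝ ∞ fun q => aI (p q) (S q) := hp.inner ℝ h1
  have hb : ContDiff ℝ ∞ fun q => bI (p q) (S q) := h1.inner ℝ h1
  match s with
  | 0 => exact cd_frI_Smooth hS hS
  | 1 => exact hb
  | 2 => exact ha.mul ha
  | _ + 3 => exact contDiff_const (c := (0 : ℝ))

end

theorem contDiff_XOf (g : ℕ → PL) : ContDiff ℝ ∞ (XOf (d := d) g) :=
  ContDiff.sum fun t _ =>
    (cd_gev_Smooth (g t) (contDiff_fst.inner ℝ contDiff_fst) contDiff_snd.fst).smul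
      (cd_XI_Smooth contDiff_fst contDiff_snd.snd.fst contDiff_snd.snd.snd t)

theorem contDiff_PhOf (h : ℕ → PL) : ContDiff ℝ ∞ (PhOf (d := d) h) :=
  ContDiff.sum fun s _ =>
    (cd_gev_Smooth (h s) (contDiff_fst.inner ℝ contDiff_fst) contDiff_snd.fst).mul
      (cd_PI_Smooth contDiff_fst contDiff_snd.snd s)

end Vale.Agent.P098
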