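import Vale.Agent.P098.S1.F.Inv
import Vale.Agent.P098.S1.F.DerA
import Vale.Agent.P098.S1.F.Smooth
import Vale.Agent.P098.S1.Euler

/-! P098 S1/F/DerB: divergence of the current and gradient of the scalar in a Parseval frame.
Plan: r = ‖x‖. For a direction a consider the curve s ↦ y s = x + s • (r • a). Along it (HasDerivAt at 0):
⟪b i, gradient u y⟫ has derivative (r • D2 u x) a (b i); ‖y‖ has derivative ⟪x, a⟫; u y / ‖y‖ has derivative
⟪p, a⟫ - v ⟪x/r, a⟫; (‖y‖ • D2 u y) has derivative (r^2 • D3 u x) a + ⟪x/r, a⟫ (r • D2 u x);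
(‖y‖^2 • D3 u y) has derivative r^3 • D4 u x a + 2 ⟪x/r, a⟫ (r^2 • D3 u x).
dvg: Pars.dvg_eq, a = b k, Pars.XOf_eq with z = b k (ar1 b (b k) is not a basis vector: use Pars.XI_eq on the
sum instead), hasDerivAt_XA, hasDerivAt_gev, XL_add_smul, XL_cancel (s1_D4_symm*, s1_D4_tr, Pars.sum_frame),
differentiability from contDiff_XOf. Gradient: a = w, expand w in the frame, PD_sum. -/

open MeasureTheory Filter Topology Set Metric
open scoped ContDiff RealInnerProductSpace NNReal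

set_option maxSynthPendingDepth 3

noncomputable section

namespace Vale.Agent.P098

variable {d : ℕ}

variable {b : Fin 6 → E d} {u : E d → ℝ} {U : Set (E d)} {x : E d}

theorem derb_curve {F : Type} [NormedAddCommGroup F] [NormedSpace ℝ F] {f : E d → F}
    (hf : DifferentiableAt ℝ f x) (v : E d) :
    HasDerivAt (fun s : ℝ => f (x + s • v)) (fderiv ℝ f x v) 0 :=
  hf.hasFDerivAt.hasLineDerivAt v

theorem derb_n (h0 : x ≠ 0) (a : E d) :
    HasDerivAt (fun s : ℝ => ‖x + s • (‖x‖ • a)‖) (‖x‖ * ⟪a, ‖x‖⁻¹ • x⟫) 0 := by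
  have hr : 0 < ‖x‖ := norm_pos_iff.2 h0
  have h1 : HasDerivAt (fun s : ℝ => x + s • (‖x‖ • a)) (‖x‖ • a) 0 := by
    simpa using ((hasDerivAt_id' (0 : ℝ)).smul_const (‖x‖ • a)).const_add x
  have h2 := h1.norm_sq.sqrt (by simpa using h0)
  simp only [Real.sqrt_sq (norm_nonneg _), zero_smul, add_zero] at h2
  refine h2.congr_deriv ?_
  rw [real_inner_smul_right, real_inner_smul_right, real_inner_comm]
  field_simp

theorem derb_p (h : ContDiffAt ℝ ∞ u x) (a c : E d) :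
    HasDerivAt (fun s : ℝ => ⟪c, gradient u (x + s • (‖x‖ • a))⟫) ((‖x‖ • D2 u x) a c) 0 := by
  have e : (fun s : ℝ => ⟪c, gradient u (x + s • (‖x‖ • a))⟫) =
      fun s : ℝ => fderiv ℝ u (x + s • (‖x‖ • a)) c := funext fun s => by
    rw [real_inner_comm]
    exact InnerProductSpace.toDual_symm_apply
  rw [e]
  have h1 := (ContinuousLinearMap.apply ℝ ℝ c).hasFDerivAt.comp_hasDerivAt (0 : ℝ)
    (derb_curve (s1e_d1 (s1e_le h 2)) (‖x‖ • a))
  refine HasDerivAt.congr_deriv h1 ?_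
  show D2 u x (‖x‖ • a) c = _
  rw [map_smul]
  rfl

theorem derb_v (h : ContDiffAt ℝ ∞ u x) (h0 : x ≠ 0) (a : E d) :
    HasDerivAt (fun s : ℝ => u (x + s • (‖x‖ • a)) / ‖x + s • (‖x‖ • a)‖)
      (⟪a, gradient u x⟫ - u x / ‖x‖ * ⟪a, ‖x‖⁻¹ • x⟫) 0 := by
  have hr : 0 < ‖x‖ := norm_pos_iff.2 h0
  have h1 := (derb_curve (h.differentiableAt (by simp)) (‖x‖ • a)).fun_div (derb_n h0 a)
    (by simpa using h0)
  refine h1.congr_deriv ?_
  have e : ⟪a, gradient u x⟫ = fderiv ℝ u x a := by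
    rw [real_inner_comm]
    exact InnerProductSpace.toDual_symm_apply
  rw [e, map_smul, smul_eq_mul, zero_smul, add_zero]
  field_simp

theorem derb_S (h : ContDiffAt ℝ ∞ u x) (h0 : x ≠ 0) (a c e : E d) :
    HasDerivAt (fun s : ℝ => (‖x + s • (‖x‖ • a)‖ • D2 u (x + s • (‖x‖ • a))) c e)
      ((‖x‖ ^ 2 • D3 u x) a c e + ⟪a, ‖x‖⁻¹ • x⟫ * (‖x‖ • D2 u x) c e) 0 := by
  obtain ⟨L, hL⟩ := s1e_ev2 c e
  have h1 := (derb_n h0 a).fun_mul (L.hasFDerivAt.comp_hasDerivAt (0 : ℝ)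
    (derb_curve (s1e_d2 (s1e_le h 3)) (‖x‖ • a)))
  simp only [Function.comp_def, hL, zero_smul, add_zero] at h1
  refine HasDerivAt.congr_deriv h1 ?_
  show _ + ‖x‖ * D3 u x (‖x‖ • a) c e = ‖x‖ ^ 2 * D3 u x a c e + _ * (‖x‖ * D2 u x c e)
  rw [map_smul]
  show _ + ‖x‖ * (‖x‖ * D3 u x a c e) = _
  ring

theorem derb_T (h : ContDiffAt ℝ ∞ u x) (h0 : x ≠ 0) (a c e f : E d) :
    HasDerivAt (fun s : ℝ => (‖x + s • (‖x‖ • a)‖ ^ 2 • D3 u (x + s • (‖x‖ • a))) c e f)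
      (‖x‖ ^ 3 * D4 u x a c e f + 2 * ⟪a, ‖x‖⁻¹ • x⟫ * (‖x‖ ^ 2 • D3 u x) c e f) 0 := by
  obtain ⟨L, hL⟩ := s1e_ev3 c e f
  have h1 := ((derb_n h0 a).fun_pow 2).fun_mul (L.hasFDerivAt.comp_hasDerivAt (0 : ℝ)
    (derb_curve ((s1_contDiffAt_D3 h).differentiableAt (by simp)) (‖x‖ • a)))
  simp only [Function.comp_def, hL, zero_smul, add_zero] at h1
  refine HasDerivAt.congr_deriv h1 ?_
  rw [map_smul]
  show _ + ‖x‖ ^ 2 * (‖x‖ * D4 u x a c e f) = _ + _ * (‖x‖ ^ 2 * D3 u x c e f)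
  push_cast
  ring

theorem derb_P {p : ℝ → A1} {p' : A1} (hp : ∀ i, HasDerivAt (fun s => p s i) (p' i) 0) :
    HasDerivAt (fun s => dtA (p s) (p s)) (2 * ∑ i, p' i * p 0 i) 0 := by
  refine (HasDerivAt.fun_sum fun i _ => (hp i).fun_mul (hp i)).congr_deriv ?_
  rw [Finset.mul_sum]
  exact Finset.sum_congr rfl fun i _ => by ring

theorem derb_jet (h : ContDiffAt ℝ ∞ u x) (h0 : x ≠ 0) :
    DifferentiableAt ℝ (gradient u) x ∧ DifferentiableAt ℝ (fun y => u y / ‖y‖) x ∧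
    DifferentiableAt ℝ (fun y => ‖y‖ • D2 u y) x ∧
    DifferentiableAt ℝ (fun y => ‖y‖ ^ 2 • D3 u y) x := by
  have hn : DifferentiableAt ℝ (fun y : E d => ‖y‖) x := differentiableAt_fun_id.norm ℝ h0
  exact ⟨(s1_contDiffAt_grad h).differentiableAt (by simp),
    ((s1e_le h 1).div (contDiffAt_norm ℝ h0) (norm_ne_zero_iff.2 h0)).differentiableAt (by simp),
    hn.fun_smul ((s1_contDiffAt_D2 h).differentiableAt (by simp)),
    (hn.fun_pow 2).fun_smul ((s1_contDiffAt_D3 h).differentiableAt (by simp))⟩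

theorem derb_inner (hb : Pars b) (g : ℕ → PL) (p : E d) (v : ℝ) (S : B2 d) (T : B3 d) (k : Fin 6) :
    ⟪b k, XOf g (p, v, S, T)⟫ = ∑ t ∈ Finset.range 20,
      gev (g t) (dtA (ar1 b p) (ar1 b p)) v * XA (ar1 b p) (ar2 b S) (ar3 b T) t k := by
  unfold XOf
  rw [inner_sum]
  refine Finset.sum_congr rfl fun t _ => ?_
  rw [real_inner_smul_right, ← hb.inner_eq, ← hb.XI_eq]
  rfl

theorem derb_sum (x p : A1) (v G GP GV : ℝ) (S : A2) (T : A3) (U : Fin 6 → A3) (t : ℕ)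
    (hU : ∑ k, XL p S (U k) t k = 0) :
    ∑ k, ((GP * (2 * ∑ i, S k i * p i) + GV * (p k - v * x k)) * XA p S T t k +
      G * (XLD p S T (S k) (shA x S T k) t k +
        XL p S (fun i j l => U k i j l + 2 * x k * T i j l) t k + XND p S (S k) (shA x S T k) t k)) =
    G * DVA x p S T t + 2 * GP * dtA (q1A p S) (XA p S T t) +
      GV * (dtA p (XA p S T t) - v * dtA x (XA p S T t)) := by
  have e : G * DVA x p S T t = G * (DVA x p S T t + ∑ k, XL p S (U k) t k) := by rw [hU, add_zero]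
  rw [e]
  unfold DVA dtA
  simp only [XL_add_smul, ← Finset.sum_add_distrib, Finset.mul_sum (s := Finset.univ) (a := G),
    Finset.mul_sum (s := Finset.univ) (a := 2 * GP), Finset.mul_sum (s := Finset.univ) (a := v),
    ← Finset.sum_sub_distrib, Finset.mul_sum (s := Finset.univ) (a := GV)]
  refine Finset.sum_congr rfl fun k _ => ?_
  have : q1A p S k = ∑ i, S k i * p i := rfl
  rw [this]
  ring

theorem dvg_fldOf (hb : Pars b) (g : ℕ → PL) (hU : IsOpen U) (hu : Harm u U) (hx : x ∈ U)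
    (h0 : x ≠ 0) : ‖x‖ * dvg (fldOf (XOf g) u) x
      = DVT g (ar1 b (‖x‖⁻¹ • x)) (ar1 b (gradient u x)) (u x / ‖x‖) (ar2 b (‖x‖ • D2 u x))
          (ar3 b (‖x‖ ^ 2 • D3 u x)) := by
  have h := (hu x hx).1
  obtain ⟨j1, j2, j3, j4⟩ := derb_jet h h0
  have hZ : DifferentiableAt ℝ (fldOf (XOf g) u) x :=
    (((contDiff_XOf g).differentiable (by simp)) _).comp x (j1.prodMk (j2.prodMk (j3.prodMk j4)))
  have hc := fun t => XL_cancel (ar1 b (gradient u x)) (ar2 b (‖x‖ • D2 u x))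
    (fun k i j l => ‖x‖ ^ 3 * D4 u x (b k) (b i) (b j) (b l))
    (fun i j k l => by rw [s1_D4_symm h]) (fun i j k l => by rw [s1_D4_symm2 h])
    (fun i j k l => by rw [s1_D4_symm3 h])
    (fun i j => by rw [← Finset.mul_sum, hb.sum_frame, s1_D4_tr hU hu hx, mul_zero]) t
  unfold DVT
  rw [hb.dvg_eq, Finset.mul_sum, ← Finset.sum_congr rfl fun t _ => derb_sum _ _ _ _ _ _ _ _ _ t (hc t),
    Finset.sum_comm]
  refine Finset.sum_congr rfl fun k _ => ?_
  have h1 := (innerSL ℝ (b k)).hasFDerivAt.comp_hasDerivAt (0 : ℝ) (derb_curve hZ (‖x‖ • b k))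
  have hp := fun i => derb_p h (b k) (b i)
  have h2 := HasDerivAt.fun_sum (u := Finset.range 20) fun t _ =>
    (hasDerivAt_gev (g t) (derb_P (p := fun s => ar1 b (gradient u (x + s • (‖x‖ • b k)))) hp)
      (derb_v h h0 (b k))).fun_mul
    (hasDerivAt_XA (p := fun s => ar1 b (gradient u (x + s • (‖x‖ • b k))))
      (S := fun s => ar2 b (‖x + s • (‖x‖ • b k)‖ • D2 u (x + s • (‖x‖ • b k))))
      (T := fun s => ar3 b (‖x + s • (‖x‖ • b k)‖ ^ 2 • D3 u (x + s • (‖x‖ • b k))))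
      hp (fun i j => derb_S h h0 (b k) (b i) (b j))
      (fun i j l => derb_T h h0 (b k) (b i) (b j) (b l)) t k)
  have h3 := h1.unique (h2.congr_of_eventuallyEq (Eventually.of_forall fun s =>
    derb_inner hb g _ _ _ _ k))
  simp only [zero_smul, add_zero] at h3
  rw [map_smul, innerSL_apply_apply, real_inner_smul_right] at h3
  exact h3

theorem derb_exp (hb : Pars b) (w : E d) (L : E d →L[ℝ] ℝ) : L w = ∑ k, ar1 b w k * L (b k) := by
  conv_lhs => rw [← hb w]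
  rw [map_sum]
  exact Finset.sum_congr rfl fun k _ => map_smul L _ _

theorem derb_dt (x y : A1) : dtA x y = dtA y x := Finset.sum_congr rfl fun _ _ => mul_comm _ _

theorem fderiv_phiOf (hb : Pars b) (h : ℕ → PL) (hU : IsOpen U) (hu : Harm u U) (hx : x ∈ U)
    (h0 : x ≠ 0) (w : E d) : ‖x‖ * fderiv ℝ (phiOf (PhOf h) u) x w
      = GWT h (ar1 b (‖x‖⁻¹ • x)) (ar1 b (gradient u x)) (u x / ‖x‖) (ar2 b (‖x‖ • D2 u x))
          (ar3 b (‖x‖ ^ 2 • D3 u x)) (ar1 b w) := by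
  have hs := (hu x hx).1
  obtain ⟨j1, j2, j3, -⟩ := derb_jet hs h0
  have hZ : DifferentiableAt ℝ (phiOf (PhOf h) u) x :=
    (((contDiff_PhOf h).differentiable (by simp)) _).comp x (j1.prodMk (j2.prodMk j3))
  have hp : ∀ i, HasDerivAt (fun s : ℝ => ar1 b (gradient u (x + s • (‖x‖ • w))) i)
      (∑ k, ar1 b w k * ar2 b (‖x‖ • D2 u x) k i) 0 := fun i =>
    (derb_p hs w (b i)).congr_deriv (derb_exp hb w
      ((ContinuousLinearMap.apply ℝ ℝ (b i)).comp (‖x‖ • D2 u x)))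
  have hS : ∀ i j, HasDerivAt
      (fun s : ℝ => ar2 b (‖x + s • (‖x‖ • w)‖ • D2 u (x + s • (‖x‖ • w))) i j)
      (∑ k, ar1 b w k * shA (ar1 b (‖x‖⁻¹ • x)) (ar2 b (‖x‖ • D2 u x))
        (ar3 b (‖x‖ ^ 2 • D3 u x)) k i j) 0 := fun i j => by
    refine (derb_S hs h0 w (b i) (b j)).congr_deriv ?_
    obtain ⟨L, hL⟩ := s1e_ev2 (b i) (b j)
    have e := derb_exp hb w (L.comp (‖x‖ ^ 2 • D3 u x))
    simp only [ContinuousLinearMap.comp_apply, hL] at e
    rw [e, hb.inner_eq, dtA, Finset.sum_mul, ← Finset.sum_add_distrib]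
    refine Finset.sum_congr rfl fun k _ => ?_
    rw [mul_assoc, ← mul_add]
    rfl
  have h2 := HasDerivAt.fun_sum (u := Finset.range 3) fun t _ =>
    (hasDerivAt_gev (h t) (derb_P hp) (derb_v hs h0 w)).fun_mul (hasDerivAt_PA hp hS t)
  have h3 := (derb_curve hZ (‖x‖ • w)).unique (h2.congr_of_eventuallyEq
    (Eventually.of_forall fun s => hb.PhOf_eq h _ _ _))
  simp only [zero_smul, add_zero] at h3
  rw [map_smul, smul_eq_mul] at h3
  rw [h3]
  unfold GWT GWA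
  refine Finset.sum_congr rfl fun t _ => ?_
  have e : ∑ i, (∑ k, ar1 b w k * ar2 b (‖x‖ • D2 u x) k i) * ar1 b (gradient u x) i =
      dtA (q1A (ar1 b (gradient u x)) (ar2 b (‖x‖ • D2 u x))) (ar1 b w) := by
    generalize ar2 b (‖x‖ • D2 u x) = S
    simp only [dtA, q1A, mvA, Finset.sum_mul]
    rw [Finset.sum_comm]
    exact Finset.sum_congr rfl fun k _ => Finset.sum_congr rfl fun i _ => by ring
  rw [PD_sum, e, hb.inner_eq w, hb.inner_eq w, derb_dt (ar1 b w), derb_dt (ar1 b w)]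
  ring

end Vale.Agent.P098
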