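import Vale.Agent.P098.S1.F.Defs
import Vale.Agent.P098.K.Alg

/-! P098 S1/F/Inv: the intrinsic currents in an arbitrary Parseval frame.
Plan: inner_vecOf: ⟪z, vecOf f⟫ = sum f i * z i; so ⟪a, mvI S z⟫ = S a z, ⟪a, tvI T x y⟫ = T a x y (expand a in bv).
sum_frame: expand bv i = sum_k ⟪b k, bv i⟫ • b k and b k = sum_i (b k i) • bv i, swap sums.
frI, jI: apply sum_frame two or three times (build the bilinear maps, or prove a version for functions linear in each slot). -/

open MeasureTheory Filter Topology Set Metric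
open scoped ContDiff RealInnerProductSpace NNReal

set_option maxSynthPendingDepth 3

noncomputable section

namespace Vale.Agent.P098

variable {d : ℕ}

variable {b : Fin 6 → E d}

theorem frm_vec (a : E d) (f : Fin d → ℝ) : ⟪a, vecOf f⟫ = ∑ i, a i * f i := by
  rw [vecOf, inner_sum]
  refine Finset.sum_congr rfl fun i _ => ?_
  rw [real_inner_smul_right, inner_bv, mul_comm]

theorem Pars.app (hb : Pars b) (l : B1 d) (z : E d) : l z = ∑ k, l (b k) * ⟪b k, z⟫ := by
  conv_lhs => rw [← hb z]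
  rw [map_sum]
  refine Finset.sum_congr rfl fun k _ => ?_
  rw [map_smul, smul_eq_mul, mul_comm]

theorem frm_B2 (S : B2 d) (a z : E d) : S a z = ∑ i, a i * S (bv i) z :=
  apply_eq_sum (S.flip z) a

theorem frm_B3 (T : B3 d) (a x y : E d) : T a x y = ∑ i, a i * T (bv i) x y :=
  frm_B2 (T.flip x) a y

theorem Pars.sum_frame (hb : Pars b) (B : B2 d) : ∑ k, B (b k) (b k) = tr B := by
  simp only [tr]
  rw [Finset.sum_congr rfl fun k _ => frm_B2 B (b k) (b k), Finset.sum_comm]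
  refine Finset.sum_congr rfl fun i _ => ?_
  rw [hb.app (B (bv i)) (bv i)]
  refine Finset.sum_congr rfl fun k _ => ?_
  rw [inner_bv, mul_comm]

theorem Pars.pair (hb : Pars b) (l m : B1 d) :
    ∑ i, l (bv i) * m (bv i) = ∑ k, l (b k) * m (b k) := by
  have h := hb.sum_frame (l.smulRight m)
  simpa [tr] using h.symm

theorem Pars.dvg_eq (hb : Pars b) (Z : E d → E d) (x : E d) :
    dvg Z x = ∑ k, ⟪b k, fderiv ℝ Z x (b k)⟫ := by
  have h := hb.sum_frame ((innerSL ℝ : E d →L[ℝ] E d →L[ℝ] ℝ).comp (fderiv ℝ Z x))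
  simp only [tr, ContinuousLinearMap.comp_apply, innerSL_apply_apply, inner_bv] at h
  rw [dvg, ← h]
  exact Finset.sum_congr rfl fun k _ => real_inner_comm _ _

theorem Pars.inner_eq (hb : Pars b) (x y : E d) : ⟪x, y⟫ = dtA (ar1 b x) (ar1 b y) := by
  have h := hb.app (innerSL ℝ x) y
  simp only [innerSL_apply_apply] at h
  rw [h, dtA]
  exact Finset.sum_congr rfl fun k _ => by rw [ar1, ar1, real_inner_comm]

theorem Pars.sqf_eq (hb : Pars b) (S : B2 d) (v w : E d) :
    sqf S v w = ∑ k, S v (b k) * S w (b k) := hb.pair (S v) (S w)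

theorem Pars.mv (hb : Pars b) (S : B2 d) (z : E d) :
    ar1 b (mvI S z) = mvA (ar2 b S) (ar1 b z) := by
  funext i
  rw [ar1, mvI, frm_vec, ← frm_B2, hb.app (S (b i)) z]
  rfl

theorem Pars.fr (hb : Pars b) (S B : B2 d) : frI S B = frA (ar2 b S) (ar2 b B) := by
  rw [frI, Finset.sum_congr rfl fun i _ => hb.pair (S (bv i)) (B (bv i)), Finset.sum_comm, frA,
    Finset.sum_comm (f := fun i j => ar2 b S i j * ar2 b B i j)]
  exact Finset.sum_congr rfl fun l _ => hb.pair (S.flip (b l)) (B.flip (b l))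

theorem Pars.tc (hb : Pars b) (T : B3 d) (B : B2 d) :
    ar1 b (tcI T B) = tcA (ar3 b T) (ar2 b B) := by
  funext l
  have h : ⟪b l, tcI T B⟫ = frI (T (b l)) B := by
    rw [tcI, frm_vec]
    simp only [frI, Finset.mul_sum]
    rw [Finset.sum_comm]
    refine Finset.sum_congr rfl fun i _ => ?_
    rw [Finset.sum_comm]
    refine Finset.sum_congr rfl fun j _ => ?_
    rw [frm_B3 T (b l), Finset.sum_mul]
    exact Finset.sum_congr rfl fun m _ => by ring
  rw [ar1, h, hb.fr]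
  rfl

theorem Pars.tv (hb : Pars b) (T : B3 d) (x y : E d) :
    ar1 b (tvI T x y) = tvA (ar3 b T) (ar1 b x) (ar1 b y) := by
  funext l
  rw [ar1, tvI, frm_vec, ← frm_B3]
  have h1 : T (b l) x y = ⟪x, mvI (T (b l)) y⟫ := by rw [mvI, frm_vec, ← frm_B2]
  rw [h1, hb.inner_eq, hb.mv]
  rfl

theorem Pars.j (hb : Pars b) (S : B2 d) : jI S = jA (ar2 b S) := by
  obtain ⟨N, hN⟩ : ∃ N : B2 d, ∀ v w, N v w = ∑ l, S v (bv l) * S (bv l) w :=
    ⟨∑ l, (S.flip (bv l)).smulRight (S (bv l)), fun v w => by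
      simp [ContinuousLinearMap.sum_apply]⟩
  have h1 : jI S = frI N S := by simp only [jI, frI, hN]
  have h2 : ar2 b N = mmA (ar2 b S) (ar2 b S) := by
    funext i k
    rw [ar2, hN]
    exact hb.pair (S (b i)) (S.flip (b k))
  rw [h1, hb.fr, h2]
  rfl

theorem Pars.a (hb : Pars b) (p : E d) (S : B2 d) : aI p S = aA (ar1 b p) (ar2 b S) := by
  rw [aI, hb.inner_eq, hb.mv]; rfl

theorem Pars.b' (hb : Pars b) (p : E d) (S : B2 d) : bI p S = bA (ar1 b p) (ar2 b S) := by
  rw [bI, hb.inner_eq, hb.mv]; rfl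

theorem Pars.c (hb : Pars b) (p : E d) (S : B2 d) : cI p S = cA (ar1 b p) (ar2 b S) := by
  rw [cI, hb.inner_eq, hb.mv, hb.mv, hb.mv]; rfl

theorem frm_smul (c : ℝ) (z : E d) : ar1 b (c • z) = fun k => c * ar1 b z k := by
  funext k
  simp only [ar1, real_inner_smul_right]

theorem frm_sub (y z : E d) : ar1 b (y - z) = fun k => ar1 b y k - ar1 b z k := by
  funext k
  simp only [ar1, inner_sub_right]

theorem Pars.XI_eq (hb : Pars b) (p : E d) (S : B2 d) (T : B3 d) (t : ℕ) :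
    ar1 b (XI p S T t) = XA (ar1 b p) (ar2 b S) (ar3 b T) t := by
  funext k
  by_cases ht : t < 20
  · interval_cases t <;>
      simp only [XI, XA, XL, XN, frm_smul, frm_sub, hb.mv, hb.tc, hb.tv, hb.fr, hb.j, hb.a, hb.b', hb.c,
        hb.inner_eq, q1A, q2A, q3A, iA, add_zero, zero_add] <;> ring
  · obtain ⟨n, rfl⟩ : ∃ n, t = n + 20 := ⟨t - 20, by omega⟩
    simp [XI, XA, XL, XN, ar1]

theorem Pars.PI_eq (hb : Pars b) (p : E d) (S : B2 d) (s : ℕ) :
    PI p S s = PA (ar1 b p) (ar2 b S) s := by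
  by_cases hs : s < 3
  · interval_cases s <;> simp only [PI, PA, hb.fr, hb.a, hb.b', iA]
  · obtain ⟨n, rfl⟩ : ∃ n, s = n + 3 := ⟨s - 3, by omega⟩
    simp [PI, PA]

theorem Pars.XOf_eq (hb : Pars b) (g : ℕ → PL) (p : E d) (v : ℝ) (S : B2 d) (T : B3 d) (z : E d) :
    ⟪z, XOf g (p, v, S, T)⟫ = XT g (ar1 b p) v (ar2 b S) (ar3 b T) (ar1 b z) := by
  simp only [XOf, XT, inner_sum, real_inner_smul_right]
  refine Finset.sum_congr rfl fun t _ => ?_
  rw [hb.inner_eq p p, hb.inner_eq z, hb.XI_eq]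

theorem Pars.PhOf_eq (hb : Pars b) (h : ℕ → PL) (p : E d) (v : ℝ) (S : B2 d) :
    PhOf h (p, v, S) = PT h (ar1 b p) v (ar2 b S) := by
  simp only [PhOf, PT]
  refine Finset.sum_congr rfl fun t _ => ?_
  rw [hb.inner_eq p p, hb.PI_eq]

theorem Pars.eq_zero (hb : Pars b) {S : B2 d} (h : ∀ i j, ar2 b S i j = 0) : S = 0 := by
  ext v w
  have h1 : ∀ i, S (b i) w = 0 := fun i => by
    rw [hb.app (S (b i)) w]
    exact Finset.sum_eq_zero fun k _ => by rw [show S (b i) (b k) = 0 from h i k, zero_mul]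
  have h2 := hb.app (S.flip w) v
  simp only [ContinuousLinearMap.flip_apply, h1, zero_mul, Finset.sum_const_zero] at h2
  simpa using h2

end Vale.Agent.P098
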