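import Vale.Agent.P098.S1.F.Arr

/-! P098 S1/F/Kron: Kronecker substitution for polynomials in two variables.
A triple `(N, n₁, n₂)` represents the real number `f` (at the point `(ρ, v)`) if there is a list of terms with
value `f` at `(ρ, v)`, value `N` at `(B₁, B₂)`, l1 norm at most `n₁` and weighted l1 norm at most `n₂`.
Plan: add = append, mul = flatMap of products, neg = map. zero: put the list into `Polynomial (Polynomial ℤ)`
(sum of monomial b (monomial a c)); lemma: P : Polynomial ℤ, eval B P = 0 and all |coeff| < B imply P = 0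
(induction with divX or look at the trailing coefficient mod B); apply it first to P.map (evalRingHom B₁) at B₂
(coefficients bounded by n₂), then to every coefficient at B₁ (bounded by n₁). -/

noncomputable section

namespace Vale.Agent.P098

abbrev KR : Type := ℤ × ℕ × ℕ

def B1n : ℕ := 3 ^ 81
def B2n : ℕ := 5 ^ 620

def KRep (ρ v f : ℝ) (k : KR) : Prop :=
  ∃ l : PL, f = gev l ρ v ∧ k.1 = (l.map fun e => e.2.2 * (B1n : ℤ) ^ e.1 * (B2n : ℤ) ^ e.2.1).sum ∧
    (l.map fun e => e.2.2.natAbs).sum ≤ k.2.1 ∧ (l.map fun e => e.2.2.natAbs * B1n ^ e.1).sum ≤ k.2.2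

variable {ρ v f g : ℝ} {k k' : KR}

def krMul (l l' : PL) : PL :=
  l.flatMap fun e => l'.map fun e' => (e.1 + e'.1, e.2.1 + e'.2.1, e.2.2 * e'.2.2)

theorem kr_mul {R : Type} [Semiring R] (φ : ℕ × ℕ × ℤ → R)
    (h : ∀ e e' : ℕ × ℕ × ℤ, φ (e.1 + e'.1, e.2.1 + e'.2.1, e.2.2 * e'.2.2) = φ e * φ e')
    (l l' : PL) : ((krMul l l').map φ).sum = (l.map φ).sum * (l'.map φ).sum := by
  induction l with
  | nil => simp [krMul]
  | cons e l ih =>
    unfold krMul at ih ⊢
    rw [List.flatMap_cons, List.map_append, List.sum_append, ih, List.map_cons, List.sum_cons,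
      add_mul, List.map_map, ← List.sum_map_mul_left l' φ (φ e)]
    congr 2
    exact List.map_congr_left fun e' _ => h e e'

theorem kr_neg (h : KRep ρ v f k) : KRep ρ v (-f) (-k.1, k.2.1, k.2.2) := by
  obtain ⟨l, h1, h2, h3, h4⟩ := h
  refine ⟨l.map fun e => (e.1, e.2.1, -e.2.2), ?_, ?_, ?_, ?_⟩
  · rw [h1]
    simp [gev, Function.comp_def, List.sum_neg]
  · rw [h2]
    simp only [List.map_map, Function.comp_def, List.sum_neg, neg_mul]
  · simpa only [List.map_map, Function.comp_def, Int.natAbs_neg] using h3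
  · simpa only [List.map_map, Function.comp_def, Int.natAbs_neg] using h4

open Polynomial in
theorem kr_poly (B : ℕ) (n : ℕ) : ∀ P : ℤ[X], P.eval (B : ℤ) = 0 →
    (∀ m, (P.coeff m).natAbs < B) → P.coeff n = 0 := by
  have h0 : ∀ P : ℤ[X], P.eval (B : ℤ) = 0 → (∀ m, (P.coeff m).natAbs < B) →
      P.coeff 0 = 0 ∧ P.divX.eval (B : ℤ) = 0 := fun P h hc => by
    rw [← P.divX_mul_X_add, eval_add, eval_mul, eval_X, eval_C] at h
    have h1 : P.coeff 0 = 0 := by
      refine Int.eq_zero_of_dvd_of_natAbs_lt_natAbs (d := B) ⟨-P.divX.eval (B : ℤ), ?_⟩ (hc 0)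
      linear_combination h
    rw [h1, add_zero] at h
    refine ⟨h1, (mul_eq_zero.1 h).resolve_right ?_⟩
    have := hc 0
    omega
  induction n with
  | zero => exact fun P h hc => (h0 P h hc).1
  | succ n ih =>
    intro P h hc
    rw [← coeff_divX]
    exact ih _ (h0 P h hc).2 fun m => by rw [coeff_divX]; exact hc _

open Polynomial in
def krP (l : PL) : ℤ[X][X] := (l.map fun e => monomial e.2.1 (monomial e.1 e.2.2)).sum

open Polynomial in
theorem kr_cons (e : ℕ × ℕ × ℤ) (l : PL) :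
    krP (e :: l) = monomial e.2.1 (monomial e.1 e.2.2) + krP l := by
  simp only [krP, List.map_cons, List.sum_cons]

open Polynomial in
theorem kr_c1 (l : PL) (a b : ℕ) :
    (((krP l).coeff b).coeff a).natAbs ≤ (l.map fun e => e.2.2.natAbs).sum := by
  induction l with
  | nil => simp [krP]
  | cons e l ih =>
    rw [kr_cons, coeff_add, coeff_add, List.map_cons, List.sum_cons]
    refine (Int.natAbs_add_le _ _).trans (add_le_add ?_ ih)
    rw [coeff_monomial]
    split_ifs
    · rw [coeff_monomial]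
      split_ifs
      · exact le_rfl
      · exact Nat.zero_le _
    · exact Nat.zero_le _

open Polynomial in
theorem kr_c2 (B : ℕ) (l : PL) (b : ℕ) :
    (((krP l).coeff b).eval (B : ℤ)).natAbs ≤ (l.map fun e => e.2.2.natAbs * B ^ e.1).sum := by
  induction l with
  | nil => simp [krP]
  | cons e l ih =>
    rw [kr_cons, coeff_add, eval_add, List.map_cons, List.sum_cons]
    refine (Int.natAbs_add_le _ _).trans (add_le_add ?_ ih)
    rw [coeff_monomial]
    split_ifs
    · rw [eval_monomial, Int.natAbs_mul, Int.natAbs_pow, Int.natAbs_natCast]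
    · rw [eval_zero]
      exact Nat.zero_le _

open Polynomial in
theorem kr_ev {R : Type} [CommRing R] (x y : R) (l : PL) :
    (krP l).eval₂ (eval₂RingHom (Int.castRingHom R) x) y =
      (l.map fun e => (e.2.2 : R) * x ^ e.1 * y ^ e.2.1).sum := by
  induction l with
  | nil => simp [krP]
  | cons e l ih =>
    rw [kr_cons, eval₂_add, ih, eval₂_monomial, coe_eval₂RingHom, eval₂_monomial, List.map_cons,
      List.sum_cons]
    rfl

theorem KRep.add (h : KRep ρ v f k) (h' : KRep ρ v g k') :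
    KRep ρ v (f + g) (k.1 + k'.1, k.2.1 + k'.2.1, k.2.2 + k'.2.2) := by
  obtain ⟨l, h1, h2, h3, h4⟩ := h
  obtain ⟨l', h1', h2', h3', h4'⟩ := h'
  refine ⟨l ++ l', ?_, ?_, ?_, ?_⟩
  · rw [h1, h1']
    simp only [gev, List.map_append, List.sum_append]
  · rw [List.map_append, List.sum_append, ← h2, ← h2']
  · rw [List.map_append, List.sum_append]
    exact add_le_add h3 h3'
  · rw [List.map_append, List.sum_append]
    exact add_le_add h4 h4'

theorem KRep.sub (h : KRep ρ v f k) (h' : KRep ρ v g k') :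
    KRep ρ v (f - g) (k.1 - k'.1, k.2.1 + k'.2.1, k.2.2 + k'.2.2) := by
  rw [sub_eq_add_neg, sub_eq_add_neg]
  exact h.add (kr_neg h')

theorem KRep.mul (h : KRep ρ v f k) (h' : KRep ρ v g k') :
    KRep ρ v (f * g) (k.1 * k'.1, k.2.1 * k'.2.1, k.2.2 * k'.2.2) := by
  obtain ⟨l, h1, h2, h3, h4⟩ := h
  obtain ⟨l', h1', h2', h3', h4'⟩ := h'
  refine ⟨krMul l l', ?_, ?_, ?_, ?_⟩
  · rw [h1, h1']
    refine (kr_mul _ (fun e e' => ?_) l l').symm
    push_cast
    ring
  · rw [kr_mul _ (fun e e' => by ring), ← h2, ← h2']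
  · rw [kr_mul _ fun e e' => Int.natAbs_mul _ _]
    exact Nat.mul_le_mul h3 h3'
  · rw [kr_mul _ fun e e' => by rw [Int.natAbs_mul]; ring]
    exact Nat.mul_le_mul h4 h4'

theorem KRep.term (a b : ℕ) (c : ℤ) : KRep ρ v (c * ρ ^ a * v ^ b)
    (c * ((B1n ^ a * B2n ^ b : ℕ) : ℤ), c.natAbs, c.natAbs * B1n ^ a) := by
  refine ⟨[(a, b, c)], ?_, ?_, ?_, ?_⟩
  · simp only [gev, List.map_cons, List.map_nil, List.sum_cons, List.sum_nil, add_zero]
  · simp only [List.map_cons, List.map_nil, List.sum_cons, List.sum_nil, add_zero]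
    rw [Nat.cast_mul, Nat.cast_pow _ a, Nat.cast_pow _ b, mul_assoc]
  · simp only [List.map_cons, List.map_nil, List.sum_cons, List.sum_nil, add_zero, le_refl]
  · simp only [List.map_cons, List.map_nil, List.sum_cons, List.sum_nil, add_zero, le_refl]

theorem KRep.zero (h : KRep ρ v f k) (h0 : k.1 = 0) (h1 : k.2.1 < B1n) (h2 : k.2.2 < B2n) :
    f = 0 := by
  obtain ⟨l, e1, e2, e3, e4⟩ := h
  have hP : krP l = 0 := by
    refine Polynomial.ext fun b => Polynomial.ext fun a => ?_
    refine kr_poly B1n a _ ?_ fun m => (kr_c1 l m b).trans_lt (e3.trans_lt h1)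
    have := kr_poly B2n b ((krP l).map (Polynomial.evalRingHom (B1n : ℤ))) ?_ fun m => ?_
    · rwa [Polynomial.coeff_map] at this
    · rw [Polynomial.eval_map, ← h0, e2]
      exact kr_ev (B1n : ℤ) (B2n : ℤ) l
    · rw [Polynomial.coeff_map]
      exact (kr_c2 B1n l m).trans_lt (e4.trans_lt h2)
  rw [e1, gev, ← kr_ev, hP, Polynomial.eval₂_zero]

theorem gev_abs_le (l : PL) (h1 : |ρ| ≤ 1) (h2 : |v| ≤ 1) :
    |gev l ρ v| ≤ ((l.map fun e => e.2.2.natAbs).sum : ℕ) := by
  induction l with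
  | nil => simp [gev]
  | cons e l ih =>
    unfold gev at ih ⊢
    rw [List.map_cons, List.sum_cons, List.map_cons, List.sum_cons, Nat.cast_add]
    refine (abs_add_le _ _).trans (add_le_add ?_ ih)
    rw [abs_mul, abs_mul, abs_pow, abs_pow, Nat.cast_natAbs, Int.cast_abs, mul_assoc]
    exact mul_le_of_le_one_right (abs_nonneg _) (mul_le_one₀ (pow_le_one₀ (abs_nonneg _) h1)
      (pow_nonneg (abs_nonneg _) _) (pow_le_one₀ (abs_nonneg _) h2))

end Vale.Agent.P098
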