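import Vale.Agent.P098.S1.F.Rl
import Vale.Agent.P098.S1.F.ExD

/-! P098 S1/F/Psd: positivity of the Gram part.
Plan: dw W X Y = sum over k < W.length of W.getD k 0 * X.getD k 0 * Y.getD k 0 (no length hypothesis needed), all
entries of WW l are nonnegative, so sum_{i,j<7} f i * f j * piJ J l i j ≥ 0 for every f; the multipliers
gev (mPL m) ρ v are 1, 1 - ρ^2 - v^2, v, v (1 - ρ^2 - v^2); hence sum_{i,j<7} GR D ρ v l i j * piJ J l i j ≥ 0.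
GR and piJ are symmetric in (i, j) and piJ J l i j = 0 (by rfl) outside the block sizes 7,7,7,3,2,1,1; with the
theorems ex_pi (rewrite from right to left) totR D J ρ v itG = -11520 * sum_l sum_{i,j} GR * piJ.
Every KK J e is some piJ J l i j with i ≤ j (by rfl, distinct triples), and |piJ l i j| ≤ (piJ l i i + piJ l j j) / 2. -/

noncomputable section

namespace Vale.Agent.P098

variable (D : Dat) (J : Jt) {ρ v : ℝ}

theorem psd_dw (W X Y : List ℝ) :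
    dw W X Y = ∑ k ∈ Finset.range W.length, W.getD k 0 * X.getD k 0 * Y.getD k 0 := by
  induction W generalizing X Y with
  | nil => simp [dw]
  | cons w W ih =>
    cases X with
    | nil => simp [dw]
    | cons x X =>
      cases Y with
      | nil => simp [dw]
      | cons y Y =>
        rw [List.length_cons, Finset.sum_range_succ', dw, ih, add_comm]
        rfl

theorem psd_mem (l : ℕ) : ∀ x ∈ WW l, 0 ≤ x := by
  match l with
  | 0 => simp [WW, W0]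
  | 1 => simp [WW, W1]
  | 2 => simp [WW, W2]
  | 3 => simp [WW, W3]
  | 4 => simp [WW, W4]
  | 5 => simp [WW, W5]
  | 6 => simp [WW, W6]
  | l + 7 => simp [WW]

theorem psd_W (l k : ℕ) : 0 ≤ (WW l).getD k 0 := by
  by_cases h : k < (WW l).length
  · rw [List.getD_eq_getElem _ _ h]
    exact psd_mem l _ (List.getElem_mem h)
  · rw [List.getD_eq_default _ _ (not_lt.1 h)]

theorem psd_symm (l i j : ℕ) : piJ J l i j = piJ J l j i := by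
  simp only [piJ, psd_dw]
  exact Finset.sum_congr rfl fun k _ => by ring

theorem psd_form (l n : ℕ) (f : ℕ → ℝ) :
    0 ≤ ∑ i ∈ Finset.range n, ∑ j ∈ Finset.range n, f i * f j * piJ J l i j := by
  have e : ∑ i ∈ Finset.range n, ∑ j ∈ Finset.range n, f i * f j * piJ J l i j =
      ∑ k ∈ Finset.range (WW l).length,
        (WW l).getD k 0 * (∑ i ∈ Finset.range n, f i * (YY J l i).getD k 0) ^ 2 := by
    simp only [piJ, psd_dw, sq, Finset.sum_mul_sum]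
    simp only [Finset.mul_sum]
    rw [Finset.sum_comm (s := Finset.range (WW l).length)]
    refine Finset.sum_congr rfl fun i _ => ?_
    rw [Finset.sum_comm (s := Finset.range (WW l).length)]
    exact Finset.sum_congr rfl fun j _ => Finset.sum_congr rfl fun k _ => by ring
  rw [e]
  exact Finset.sum_nonneg fun k _ => mul_nonneg (psd_W l k) (sq_nonneg _)

theorem psd_abs (l i j : ℕ) : |piJ J l i j| ≤ (piJ J l i i + piJ J l j j) / 2 := by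
  simp only [piJ, psd_dw]
  rw [← Finset.sum_add_distrib, Finset.sum_div]
  refine (Finset.abs_sum_le_sum_abs _ _).trans (Finset.sum_le_sum fun k _ => ?_)
  have h := psd_W l k
  generalize (WW l).getD k 0 = w at h
  generalize (YY J l i).getD k 0 = x
  generalize (YY J l j).getD k 0 = y
  have h1 := mul_nonneg h (sq_nonneg (x - y))
  have h2 := mul_nonneg h (sq_nonneg (x + y))
  rw [abs_le]
  constructor <;> nlinarith

theorem psd_mul (hv : 0 ≤ v) (h1 : ρ ^ 2 + v ^ 2 ≤ 1) (m : ℕ) : 0 ≤ gev (mPL m) ρ v := by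
  have h2 : 0 ≤ 1 - ρ ^ 2 - v ^ 2 := by linarith
  match m with
  | 0 => simp [gev, mPL]
  | 1 => simp only [gev, mPL, List.map_cons, List.map_nil, List.sum_cons, List.sum_nil]; push_cast; linarith
  | 2 => simpa [gev, mPL] using hv
  | 3 =>
    simp only [gev, mPL, List.map_cons, List.map_nil, List.sum_cons, List.sum_nil]
    push_cast
    nlinarith [mul_nonneg hv h2]
  | m + 4 => simp [gev, mPL]

theorem psd_GR (hv : 0 ≤ v) (h1 : ρ ^ 2 + v ^ 2 ≤ 1) (l n : ℕ) :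
    0 ≤ ∑ i ∈ Finset.range n, ∑ j ∈ Finset.range n, GR D ρ v l i j * piJ J l i j := by
  have e : ∑ i ∈ Finset.range n, ∑ j ∈ Finset.range n, GR D ρ v l i j * piJ J l i j =
      ∑ sb ∈ Finset.range 8, gev (mPL (sb / 2)) ρ v * ∑ k ∈ Finset.range (ncol D l sb),
        ∑ i ∈ Finset.range n, ∑ j ∈ Finset.range n,
          gev (fF D l sb k i) ρ v * gev (fF D l sb k j) ρ v * piJ J l i j := by
    simp only [GR, Finset.sum_mul, Finset.mul_sum, mul_assoc]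
    symm
    refine (Finset.sum_congr rfl fun sb _ => Finset.sum_comm.trans
      (Finset.sum_congr rfl fun i _ => Finset.sum_comm)).trans ?_
    rw [Finset.sum_comm]
    exact Finset.sum_congr rfl fun i _ => Finset.sum_comm
  rw [e]
  exact Finset.sum_nonneg fun sb _ => mul_nonneg (psd_mul hv h1 _)
    (Finset.sum_nonneg fun k _ => psd_form J l n _)

theorem psd_GRs (l i j : ℕ) : GR D ρ v l i j * piJ J l i j = GR D ρ v l j i * piJ J l j i := by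
  rw [psd_symm J l i j]
  simp only [GR, mul_comm]

theorem psd_sym7 (F : ℕ → ℕ → ℝ) (h : ∀ i j, F i j = F j i)
    (h0 : 0 ≤ ∑ i ∈ Finset.range 7, ∑ j ∈ Finset.range 7, F i j) : 0 ≤
      F 0 0 + 2 * F 0 1 + 2 * F 0 2 + 2 * F 0 3 + 2 * F 0 4 + 2 * F 0 5 + 2 * F 0 6 + F 1 1
      + 2 * F 1 2 + 2 * F 1 3 + 2 * F 1 4 + 2 * F 1 5 + 2 * F 1 6 + F 2 2 + 2 * F 2 3 + 2 *
      F 2 4 + 2 * F 2 5 + 2 * F 2 6 + F 3 3 + 2 * F 3 4 + 2 * F 3 5 + 2 * F 3 6 + F 4 4 + 2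
      * F 4 5 + 2 * F 4 6 + F 5 5 + 2 * F 5 6 + F 6 6 := by
  simp only [Finset.sum_range_succ, Finset.sum_range_zero, zero_add] at h0
  rw [h 1 0, h 2 0, h 3 0, h 4 0, h 5 0, h 6 0, h 2 1, h 3 1, h 4 1, h 5 1, h 6 1, h 3 2, h 4 2,
    h 5 2, h 6 2, h 4 3, h 5 3, h 6 3, h 5 4, h 6 4, h 6 5] at h0
  linarith

theorem psd_sym3 (F : ℕ → ℕ → ℝ) (h : ∀ i j, F i j = F j i)
    (h0 : 0 ≤ ∑ i ∈ Finset.range 3, ∑ j ∈ Finset.range 3, F i j) : 0 ≤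
      F 0 0 + 2 * F 0 1 + 2 * F 0 2 + F 1 1 + 2 * F 1 2 + F 2 2 := by
  simp only [Finset.sum_range_succ, Finset.sum_range_zero, zero_add] at h0
  rw [h 1 0, h 2 0, h 2 1] at h0
  linarith

theorem psd_sym2 (F : ℕ → ℕ → ℝ) (h : ∀ i j, F i j = F j i)
    (h0 : 0 ≤ ∑ i ∈ Finset.range 2, ∑ j ∈ Finset.range 2, F i j) : 0 ≤
      F 0 0 + 2 * F 0 1 + F 1 1 := by
  simp only [Finset.sum_range_succ, Finset.sum_range_zero, zero_add] at h0
  rw [h 1 0] at h0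
  linarith

theorem psd_at (i j : ℕ) : atR D ρ v 7 i j = GR D ρ v 0 i j ∧
    atR D ρ v 8 i j = GR D ρ v 1 i j ∧
    atR D ρ v 9 i j = GR D ρ v 2 i j ∧
    atR D ρ v 10 i j = GR D ρ v 3 i j ∧
    atR D ρ v 11 i j = GR D ρ v 4 i j ∧
    atR D ρ v 12 i j = GR D ρ v 5 i j ∧
    atR D ρ v 13 i j = GR D ρ v 6 i j :=
  ⟨rfl, rfl, rfl, rfl, rfl, rfl, rfl⟩

theorem psd_zero : piJ J 3 3 3 = 0 ∧
    piJ J 3 4 4 = 0 ∧
    piJ J 3 5 5 = 0 ∧
    piJ J 3 6 6 = 0 ∧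
    piJ J 4 2 2 = 0 ∧
    piJ J 4 3 3 = 0 ∧
    piJ J 4 4 4 = 0 ∧
    piJ J 4 5 5 = 0 ∧
    piJ J 4 6 6 = 0 ∧
    piJ J 5 1 1 = 0 ∧
    piJ J 5 2 2 = 0 ∧
    piJ J 5 3 3 = 0 ∧
    piJ J 5 4 4 = 0 ∧
    piJ J 5 5 5 = 0 ∧
    piJ J 5 6 6 = 0 ∧
    piJ J 6 1 1 = 0 ∧
    piJ J 6 2 2 = 0 ∧
    piJ J 6 3 3 = 0 ∧
    piJ J 6 4 4 = 0 ∧
    piJ J 6 5 5 = 0 ∧
    piJ J 6 6 6 = 0 :=
  ⟨rfl, rfl, rfl, rfl, rfl, rfl, rfl, rfl, rfl, rfl, rfl, rfl, rfl, rfl, rfl, rfl, rfl, rfl, rfl, rfl, rfl⟩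

theorem piJ_nonneg (l i : ℕ) : 0 ≤ piJ J l i i := by
  have := (abs_nonneg _).trans (psd_abs J l i i)
  linarith

theorem tot_itG (hv : 0 ≤ v) (h1 : ρ ^ 2 + v ^ 2 ≤ 1) : totR D J ρ v itG ≤ 0 := by
  have a0 := psd_sym7 _ (psd_GRs D J 0) (psd_GR D J hv h1 0 7)
  have a1 := psd_sym7 _ (psd_GRs D J 1) (psd_GR D J hv h1 1 7)
  have a2 := psd_sym7 _ (psd_GRs D J 2) (psd_GR D J hv h1 2 7)
  have a3 := psd_sym3 _ (psd_GRs D J 3) (psd_GR D J hv h1 3 3)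
  have a4 := psd_sym2 _ (psd_GRs D J 4) (psd_GR D J hv h1 4 2)
  have a5 := psd_GR D J hv h1 5 1
  have a6 := psd_GR D J hv h1 6 1
  simp only [Finset.sum_range_one] at a5 a6
  simp only [totR, itG, List.map_cons, List.map_nil, List.sum_cons, List.sum_nil,
    (psd_at D _ _).1, (psd_at D _ _).2.1, (psd_at D _ _).2.2.1, (psd_at D _ _).2.2.2.1,
    (psd_at D _ _).2.2.2.2.1, (psd_at D _ _).2.2.2.2.2.1, (psd_at D _ _).2.2.2.2.2.2, ← ex_pi000,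
    ← ex_pi001, ← ex_pi002, ← ex_pi003, ← ex_pi004, ← ex_pi005, ← ex_pi006, ← ex_pi011,
    ← ex_pi012, ← ex_pi013, ← ex_pi014, ← ex_pi015, ← ex_pi016, ← ex_pi022, ← ex_pi023,
    ← ex_pi024, ← ex_pi025, ← ex_pi026, ← ex_pi033, ← ex_pi034, ← ex_pi035, ← ex_pi036,
    ← ex_pi044, ← ex_pi045, ← ex_pi046, ← ex_pi055, ← ex_pi056, ← ex_pi066, ← ex_pi100,
    ← ex_pi101, ← ex_pi102, ← ex_pi103, ← ex_pi104, ← ex_pi105, ← ex_pi106, ← ex_pi111,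
    ← ex_pi112, ← ex_pi113, ← ex_pi114, ← ex_pi115, ← ex_pi116, ← ex_pi122, ← ex_pi123,
    ← ex_pi124, ← ex_pi125, ← ex_pi126, ← ex_pi133, ← ex_pi134, ← ex_pi135, ← ex_pi136,
    ← ex_pi144, ← ex_pi145, ← ex_pi146, ← ex_pi155, ← ex_pi156, ← ex_pi166, ← ex_pi200,
    ← ex_pi201, ← ex_pi202, ← ex_pi203, ← ex_pi204, ← ex_pi205, ← ex_pi206, ← ex_pi211,
    ← ex_pi212, ← ex_pi213, ← ex_pi214, ← ex_pi215, ← ex_pi216, ← ex_pi222, ← ex_pi223,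
    ← ex_pi224, ← ex_pi225, ← ex_pi226, ← ex_pi233, ← ex_pi234, ← ex_pi235, ← ex_pi236,
    ← ex_pi244, ← ex_pi245, ← ex_pi246, ← ex_pi255, ← ex_pi256, ← ex_pi266, ← ex_pi300,
    ← ex_pi301, ← ex_pi302, ← ex_pi311, ← ex_pi312, ← ex_pi322, ← ex_pi400, ← ex_pi401,
    ← ex_pi411, ← ex_pi500, ← ex_pi600]
  push_cast
  linarith

theorem tot_itM (m m' : ℤ) : totR D J ρ v (itM m m') =
    576 * (m * trP J + m' * (piJ J 0 6 6 + piJ J 1 6 6 + piJ J 2 6 6)) := by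
  have hz := psd_zero J
  have h6 : atR D ρ v 6 0 0 = 1 := rfl
  simp only [totR, itM, List.map_cons, List.map_nil, List.sum_cons, List.sum_nil, h6, trP,
    Finset.sum_range_succ, Finset.sum_range_zero, hz,
    ← ex_pi000, ← ex_pi011, ← ex_pi022, ← ex_pi033, ← ex_pi044, ← ex_pi055, ← ex_pi066,
    ← ex_pi100, ← ex_pi111, ← ex_pi122, ← ex_pi133, ← ex_pi144, ← ex_pi155, ← ex_pi166,
    ← ex_pi200, ← ex_pi211, ← ex_pi222, ← ex_pi233, ← ex_pi244, ← ex_pi255, ← ex_pi266,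
    ← ex_pi300, ← ex_pi311, ← ex_pi322, ← ex_pi400, ← ex_pi411, ← ex_pi500, ← ex_pi600]
  ring

theorem sum_KK : ∑ e ∈ Finset.range 68, |KK J e| ≤ 4 * trP J := by
  have k0 : |KK J 0| ≤ _ := psd_abs J 0 0 0
  have k1 : |KK J 1| ≤ _ := psd_abs J 0 0 1
  have k2 : |KK J 2| ≤ _ := psd_abs J 0 0 2
  have k3 : |KK J 3| ≤ _ := psd_abs J 0 0 3
  have k4 : |KK J 4| ≤ _ := psd_abs J 0 0 4
  have k5 : |KK J 5| ≤ _ := psd_abs J 0 0 5
  have k6 : |KK J 6| ≤ _ := psd_abs J 0 0 6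
  have k7 : |KK J 7| ≤ _ := psd_abs J 0 1 1
  have k8 : |KK J 8| ≤ _ := psd_abs J 0 1 2
  have k9 : |KK J 9| ≤ _ := psd_abs J 0 1 3
  have k10 : |KK J 10| ≤ _ := psd_abs J 0 1 4
  have k11 : |KK J 11| ≤ _ := psd_abs J 0 1 5
  have k12 : |KK J 12| ≤ _ := psd_abs J 0 1 6
  have k13 : |KK J 13| ≤ _ := psd_abs J 0 2 2
  have k14 : |KK J 14| ≤ _ := psd_abs J 0 2 3
  have k15 : |KK J 15| ≤ _ := psd_abs J 0 2 4
  have k16 : |KK J 16| ≤ _ := psd_abs J 0 2 5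
  have k17 : |KK J 17| ≤ _ := psd_abs J 0 2 6
  have k18 : |KK J 18| ≤ _ := psd_abs J 0 3 3
  have k19 : |KK J 19| ≤ _ := psd_abs J 0 3 4
  have k20 : |KK J 20| ≤ _ := psd_abs J 0 3 5
  have k21 : |KK J 21| ≤ _ := psd_abs J 0 3 6
  have k22 : |KK J 22| ≤ _ := psd_abs J 0 4 4
  have k23 : |KK J 23| ≤ _ := psd_abs J 0 4 5
  have k24 : |KK J 24| ≤ _ := psd_abs J 0 4 6
  have k25 : |KK J 25| ≤ _ := psd_abs J 0 5 5
  have k26 : |KK J 26| ≤ _ := psd_abs J 0 5 6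
  have k27 : |KK J 27| ≤ _ := psd_abs J 0 6 6
  have k28 : |KK J 28| ≤ _ := psd_abs J 1 0 0
  have k29 : |KK J 29| ≤ _ := psd_abs J 1 0 1
  have k30 : |KK J 30| ≤ _ := psd_abs J 1 0 2
  have k31 : |KK J 31| ≤ _ := psd_abs J 1 0 3
  have k32 : |KK J 32| ≤ _ := psd_abs J 1 0 4
  have k33 : |KK J 33| ≤ _ := psd_abs J 1 0 5
  have k34 : |KK J 34| ≤ _ := psd_abs J 1 0 6
  have k35 : |KK J 35| ≤ _ := psd_abs J 1 1 2
  have k36 : |KK J 36| ≤ _ := psd_abs J 1 1 5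
  have k37 : |KK J 37| ≤ _ := psd_abs J 1 2 2
  have k38 : |KK J 38| ≤ _ := psd_abs J 1 2 4
  have k39 : |KK J 39| ≤ _ := psd_abs J 1 2 5
  have k40 : |KK J 40| ≤ _ := psd_abs J 1 2 6
  have k41 : |KK J 41| ≤ _ := psd_abs J 1 3 3
  have k42 : |KK J 42| ≤ _ := psd_abs J 1 3 5
  have k43 : |KK J 43| ≤ _ := psd_abs J 1 4 4
  have k44 : |KK J 44| ≤ _ := psd_abs J 1 4 5
  have k45 : |KK J 45| ≤ _ := psd_abs J 1 4 6
  have k46 : |KK J 46| ≤ _ := psd_abs J 1 5 5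
  have k47 : |KK J 47| ≤ _ := psd_abs J 1 5 6
  have k48 : |KK J 48| ≤ _ := psd_abs J 1 6 6
  have k49 : |KK J 49| ≤ _ := psd_abs J 2 0 0
  have k50 : |KK J 50| ≤ _ := psd_abs J 2 0 1
  have k51 : |KK J 51| ≤ _ := psd_abs J 2 0 2
  have k52 : |KK J 52| ≤ _ := psd_abs J 2 0 3
  have k53 : |KK J 53| ≤ _ := psd_abs J 2 0 4
  have k54 : |KK J 54| ≤ _ := psd_abs J 2 0 5
  have k55 : |KK J 55| ≤ _ := psd_abs J 2 0 6
  have k56 : |KK J 56| ≤ _ := psd_abs J 2 1 3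
  have k57 : |KK J 57| ≤ _ := psd_abs J 2 3 3
  have k58 : |KK J 58| ≤ _ := psd_abs J 2 3 4
  have k59 : |KK J 59| ≤ _ := psd_abs J 2 3 6
  have k60 : |KK J 60| ≤ _ := psd_abs J 2 4 4
  have k61 : |KK J 61| ≤ _ := psd_abs J 2 4 6
  have k62 : |KK J 62| ≤ _ := psd_abs J 2 5 5
  have k63 : |KK J 63| ≤ _ := psd_abs J 2 6 6
  have k64 : |KK J 64| ≤ _ := psd_abs J 3 0 0
  have k65 : |KK J 65| ≤ _ := psd_abs J 3 0 1
  have k66 : |KK J 66| ≤ _ := psd_abs J 3 0 2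
  have k67 : |KK J 67| ≤ _ := psd_abs J 3 2 2
  have hz := psd_zero J
  simp only [trP, Finset.sum_range_succ, Finset.sum_range_zero, hz]
  linarith [piJ_nonneg J 0 0, piJ_nonneg J 0 1, piJ_nonneg J 0 2, piJ_nonneg J 0 3, piJ_nonneg J 0 4,
    piJ_nonneg J 0 5, piJ_nonneg J 0 6, piJ_nonneg J 1 0, piJ_nonneg J 1 1, piJ_nonneg J 1 2,
    piJ_nonneg J 1 3, piJ_nonneg J 1 4, piJ_nonneg J 1 5, piJ_nonneg J 1 6, piJ_nonneg J 2 0,
    piJ_nonneg J 2 1, piJ_nonneg J 2 2, piJ_nonneg J 2 3, piJ_nonneg J 2 4, piJ_nonneg J 2 5,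
    piJ_nonneg J 2 6, piJ_nonneg J 3 0, piJ_nonneg J 3 1, piJ_nonneg J 3 2, piJ_nonneg J 4 0,
    piJ_nonneg J 4 1, piJ_nonneg J 5 0, piJ_nonneg J 6 0]

end Vale.Agent.P098
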