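import Vale.Agent.P098.S1.F.Chk
import Vale.Agent.P098.S1.F.Jt

/-! P098 S1/F/Rl: the real side of the sum of squares check (FROZEN, owner helper4) -/

noncomputable section

namespace Vale.Agent.P098

/-- the Gram matrices of the certificate -/
def GR (D : Dat) (ρ v : ℝ) (l i j : ℕ) : ℝ :=
  ∑ sb ∈ Finset.range 8, gev (mPL (sb / 2)) ρ v *
    ∑ k ∈ Finset.range (ncol D l sb), gev (fF D l sb k i) ρ v * gev (fF D l sb k j) ρ v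

def atR (D : Dat) (ρ v : ℝ) : ℕ → ℕ → ℕ → ℝ
  | 0, t, _ => gev (D.g t) (ρ ^ 2 + v ^ 2) v
  | 1, t, _ => gev (gdP (D.g t)) (ρ ^ 2 + v ^ 2) v
  | 2, t, _ => gev (gdV (D.g t)) (ρ ^ 2 + v ^ 2) v
  | 3, t, _ => gev (D.h t) (ρ ^ 2 + v ^ 2) v
  | 4, t, _ => gev (gdP (D.h t)) (ρ ^ 2 + v ^ 2) v
  | 5, t, _ => gev (gdV (D.h t)) (ρ ^ 2 + v ^ 2) v
  | 6, _, _ => 1
  | l + 7, i, j => GR D ρ v l i j

def totR (D : Dat) (J : Jt) (ρ v : ℝ) (its : List IT) : ℝ :=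
  (its.map fun q => (q.1 : ℝ) * atR D ρ v q.2.1.1 q.2.1.2.1 q.2.1.2.2 * tev J v ρ q.2.2).sum

/-- the sum of the diagonal Gram invariants -/
def trP (J : Jt) : ℝ := ∑ l ∈ Finset.range 7, ∑ i ∈ Finset.range 7, piJ J l i i

/-- the excess in the interior inequality -/
def EE (n : ℕ) (g h : ℕ → PL) (J : Jt) (ρ v : ℝ) : ℝ :=
  DVT g xE (pE v ρ) v J.S J.T - ((n : ℝ) - 1) * XT g (pE v ρ) v J.S J.T xE
    + (-6 / 5) * XT g (pE v ρ) v J.S J.T J.w - GWT h xE (pE v ρ) v J.S J.T J.w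
    + (11 / 5) * PT h (pE v ρ) v J.S * dtA J.w J.w - ((n : ℝ) - 2) ^ 2 / 4 * PT h (pE v ρ) v J.S

end Vale.Agent.P098
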