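import Vale.Agent.P098.S1.F.Rl

/-! P098 S1/F/Snd: soundness of the kernel check -/

noncomputable section

namespace Vale.Agent.P098

variable {ρ v f g : ℝ} {k k' : KR}

theorem kr_add (h : KRep ρ v f k) (h' : KRep ρ v g k') : KRep ρ v (f + g) (kadd k k') := by
  obtain ⟨a1, a2, a3⟩ := k
  obtain ⟨b1, b2, b3⟩ := k'
  exact h.add h'

theorem kr_sub (h : KRep ρ v f k) (h' : KRep ρ v g k') : KRep ρ v (f - g) (ksub k k') := by
  obtain ⟨a1, a2, a3⟩ := k
  obtain ⟨b1, b2, b3⟩ := k'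
  exact h.sub h'

theorem kr_mul' (h : KRep ρ v f k) (h' : KRep ρ v g k') : KRep ρ v (f * g) (kmul k k') := by
  obtain ⟨a1, a2, a3⟩ := k
  obtain ⟨b1, b2, b3⟩ := k'
  exact h.mul h'

theorem kr_term (a b : ℕ) (c : ℤ) : KRep ρ v (c * ρ ^ a * v ^ b) (kterm a b c) :=
  KRep.term a b c

theorem kr_const (c : ℤ) : KRep ρ v c (kterm 0 0 c) := by
  simpa only [pow_zero, mul_one] using kr_term (ρ := ρ) (v := v) 0 0 c

theorem kr_zero : KRep ρ v 0 kzero := ⟨[], rfl, rfl, le_rfl, le_rfl⟩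

theorem kr_sum (n : ℕ) (F : ℕ → ℝ) (K : ℕ → KR) (h : ∀ i, KRep ρ v (F i) (K i)) :
    KRep ρ v (∑ i ∈ Finset.range n, F i) (sumK n K) := by
  induction n with
  | zero => exact kr_zero
  | succ n ih =>
    rw [Finset.sum_range_succ]
    exact kr_add ih (h n)

theorem kr_PL (l : PL) : KRep ρ v (gev l ρ v) (kPL l) := by
  induction l with
  | nil => exact kr_zero
  | cons e l ih => exact kr_add (kr_term e.1 e.2.1 e.2.2) ih

theorem kr_P : KRep ρ v (ρ ^ 2 + v ^ 2) kP := by
  have := kr_add (kr_term (ρ := ρ) (v := v) 2 0 1) (kr_term 0 2 1)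
  simp only [pow_zero, mul_one, Int.cast_one, one_mul] at this
  exact this

theorem kr_one : KRep ρ v 1 (kterm 0 0 1) := by
  simpa only [Int.cast_one] using kr_const (ρ := ρ) (v := v) 1

theorem kr_Pw (i : ℕ) : KRep ρ v ((ρ ^ 2 + v ^ 2) ^ i) (kPw i) := by
  induction i with
  | zero =>
    rw [pow_zero]
    exact kr_one
  | succ i ih =>
    rw [pow_succ]
    exact kr_mul' ih kr_P

theorem kr_gev (l : PL) : KRep ρ v (gev l (ρ ^ 2 + v ^ 2) v) (kgev l) := by
  induction l with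
  | nil => exact kr_zero
  | cons e l ih =>
    have := kr_add (kr_mul' (kr_Pw (ρ := ρ) (v := v) e.1) (kr_term 0 e.2.1 e.2.2)) ih
    rwa [pow_zero, mul_one, ← mul_assoc, mul_comm _ (e.2.2 : ℝ)] at this

theorem gev_dec0 (m : List (ℕ × ℕ)) : gev (dec m 0) ρ v = 0 := by
  induction m with
  | nil => rfl
  | cons e m ih =>
    have e1 : gev (dec (e :: m) 0) ρ v = ((0 : ℤ) : ℝ) * ρ ^ e.1 * v ^ e.2 + gev (dec m 0) ρ v :=
      rfl
    rw [e1, ih, Int.cast_zero, zero_mul, zero_mul, zero_add]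

theorem kr_G (D : Dat) (l i j : ℕ) : KRep ρ v (GR D ρ v l i j) (kG D l i j) := by
  refine kr_sum 8 _ _ fun sb => kr_mul' (kr_PL _) (kr_sum _ _ _ fun k => ?_)
  cases hc : Nat.beq (cd D l sb k i) 0 with
  | false => exact kr_mul' (kr_PL _) (kr_PL _)
  | true =>
    rw [fF, Nat.eq_of_beq_eq_true hc, gev_dec0, zero_mul]
    exact kr_zero

theorem frc_eq (n : ℕ) (F : ℕ → KR) : frc n F = F n := by
  cases n <;> rfl

theorem kr_at (D : Dat) : ∀ a i j, KRep ρ v (atR D ρ v a i j) (atK D a i j)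
  | 0, _, _ => by
    rw [atK, frc_eq]
    exact kr_gev _
  | 1, _, _ => by
    rw [atK, frc_eq]
    exact kr_gev _
  | 2, _, _ => by
    rw [atK, frc_eq]
    exact kr_gev _
  | 3, _, _ => by
    rw [atK, frc_eq]
    exact kr_gev _
  | 4, _, _ => by
    rw [atK, frc_eq]
    exact kr_gev _
  | 5, _, _ => by
    rw [atK, frc_eq]
    exact kr_gev _
  | 6, _, _ => kr_one
  | l + 7, i, j => by
    rw [atK, frc_eq, frc_eq]
    exact kr_G D l i j

/-- the coefficient of the invariant number `e` -/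
def cfR (ρ v : ℝ) (e : ℕ) (tl : TL) : ℝ := (tl.map fun q => if q.1 = e then gev q.2 ρ v else 0).sum

def remR (D : Dat) (ρ v : ℝ) (its : List IT) (e : ℕ) : ℝ :=
  (its.map fun q => (q.1 : ℝ) * atR D ρ v q.2.1.1 q.2.1.2.1 q.2.1.2.2 * cfR ρ v e q.2.2).sum

theorem kr_coef (e : ℕ) (tl : TL) (h : KRep ρ v f k) (h' : KRep ρ v g k') :
    KRep ρ v (f * cfR ρ v e tl + g) (kcoef e tl k k') := by
  induction tl with
  | nil =>
    simp only [cfR, List.map_nil, List.sum_nil, mul_zero, zero_add]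
    exact h'
  | cons q tl ih =>
    have e1 : cfR ρ v e (q :: tl) = (if q.1 = e then gev q.2 ρ v else 0) + cfR ρ v e tl := rfl
    have e2 : kcoef e (q :: tl) k k' = Bool.rec (motive := fun _ => KR) (kcoef e tl k k')
      (kadd (kmul k (kPL q.2)) (kcoef e tl k k')) (Nat.beq q.1 e) := rfl
    rw [e1, e2]
    by_cases hq : q.1 = e
    · rw [if_pos hq, show Nat.beq q.1 e = true from hq ▸ Nat.beq_refl _, mul_add, add_assoc]
      exact kr_add (kr_mul' h (kr_PL _)) ih
    · rw [if_neg hq, zero_add, show Nat.beq q.1 e = false from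
        Bool.eq_false_iff.2 fun h => hq (Nat.eq_of_beq_eq_true h)]
      exact ih

theorem kr_rem (D : Dat) (its : List IT) (e : ℕ) : KRep ρ v (remR D ρ v its e) (krem D its e) := by
  induction its with
  | nil => exact kr_zero
  | cons q its ih => exact kr_coef e q.2.2 (kr_mul' (kr_const q.1) (kr_at D _ _ _)) ih

theorem l1_eq (l : PL) : l1 l = (l.map fun e => e.2.2.natAbs).sum := by
  induction l with
  | nil => rfl
  | cons e l ih =>
    rw [List.map_cons, List.sum_cons, ← ih]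
    rfl

theorem okK_abs {eps : ℕ} {l : PL} (h : KRep ρ v f k) (ok : okK eps k l = true) (h1 : |ρ| ≤ 1)
    (h2 : |v| ≤ 1) : |f| ≤ eps := by
  have hs := kr_sub h (kr_PL l)
  unfold okK at ok
  generalize ksub k (kPL l) = r at hs ok
  obtain ⟨a1, a2, a3⟩ := r
  simp only [Bool.and_eq_true, Nat.blt_eq, Nat.ble_eq] at ok
  obtain ⟨o1, o2, o3, o4⟩ := ok
  rw [sub_eq_zero.1 (hs.zero (Int.natAbs_eq_zero.1 (Nat.eq_of_beq_eq_true o1)) o2 o3)]
  refine (gev_abs_le l h1 h2).trans ?_
  rw [← l1_eq]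
  exact_mod_cast o4

theorem okAll_spec {D : Dat} {its : List IT} {a : ℕ} : ∀ n, okAll D its a n = true →
    ∀ k < n, okE D its (a + k) = true := by
  intro n
  induction n with
  | zero => exact fun _ k hk => absurd hk (Nat.not_lt_zero k)
  | succ n ih =>
    intro h k hk
    have e : okAll D its a (n + 1) = Bool.rec (motive := fun _ => Bool) false (okAll D its a n)
      (okE D its (a + n)) := rfl
    rw [e] at h
    cases hc : okE D its (a + n) with
    | false => rw [hc] at h; exact absurd h Bool.false_ne_true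
    | true =>
      rw [hc] at h
      rcases Nat.lt_succ_iff_lt_or_eq.1 hk with h' | rfl
      · exact ih h k h'
      · exact hc

theorem KK_big (J : Jt) (n : ℕ) : KK J (n + 68) = 0 := rfl

theorem tev_eq (J : Jt) (tl : TL) :
    tev J v ρ tl = ∑ e ∈ Finset.range 68, cfR ρ v e tl * KK J e := by
  induction tl with
  | nil => simp [tev, cfR]
  | cons q tl ih =>
    have e1 : ∀ e, cfR ρ v e (q :: tl) = (if q.1 = e then gev q.2 ρ v else 0) + cfR ρ v e tl :=
      fun _ => rfl
    have e2 : tev J v ρ (q :: tl) = gev q.2 ρ v * KK J q.1 + tev J v ρ tl := rfl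
    simp only [e1, add_mul, Finset.sum_add_distrib, e2, ih, ite_mul, zero_mul,
      Finset.sum_ite_eq, Finset.mem_range]
    congr 1
    split_ifs with h
    · rfl
    · obtain ⟨n, hn⟩ := Nat.exists_eq_add_of_le' (not_lt.1 h)
      rw [hn, KK_big, mul_zero]

theorem totR_eq (D : Dat) (J : Jt) (its : List IT) :
    totR D J ρ v its = ∑ e ∈ Finset.range 68, remR D ρ v its e * KK J e := by
  induction its with
  | nil => simp [totR, remR]
  | cons q its ih =>
    have e1 : ∀ e, remR D ρ v (q :: its) e = (q.1 : ℝ) * atR D ρ v q.2.1.1 q.2.1.2.1 q.2.1.2.2 *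
      cfR ρ v e q.2.2 + remR D ρ v its e := fun _ => rfl
    have e2 : totR D J ρ v (q :: its) = (q.1 : ℝ) * atR D ρ v q.2.1.1 q.2.1.2.1 q.2.1.2.2 *
      tev J v ρ q.2.2 + totR D J ρ v its := rfl
    simp only [e1, add_mul, Finset.sum_add_distrib, e2, ih, tev_eq, Finset.mul_sum, mul_assoc]

theorem snd {D : Dat} {its : List IT} (J : Jt) (h : ∀ e < 68, okE D its e = true) (h1 : |ρ| ≤ 1)
    (h2 : |v| ≤ 1) : |totR D J ρ v its| ≤ D.eps * ∑ e ∈ Finset.range 68, |KK J e| := by
  rw [totR_eq, Finset.mul_sum]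
  refine (Finset.abs_sum_le_sum_abs _ _).trans (Finset.sum_le_sum fun e he => ?_)
  rw [abs_mul]
  exact mul_le_mul_of_nonneg_right
    (okK_abs (kr_rem D its e) (h e (Finset.mem_range.1 he)) h1 h2) (abs_nonneg _)

theorem totR_append (D : Dat) (J : Jt) (a b : List IT) :
    totR D J ρ v (a ++ b) = totR D J ρ v a + totR D J ρ v b := by
  simp only [totR, List.map_append, List.sum_append]

end Vale.Agent.P098
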